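import Vale.Agent.P267.H285.Cplx

/-!
# Cohomology, closed range, dual bases and closures for `HodgeData`

helper285, package RRK-BAN.
-/

namespace Vale.Agent.P267.H285

open Module Filter Topology

section DualBasis

variable {𝕜 : Type*} [RCLike 𝕜]
variable {A : Type*} [AddCommGroup A] [Module 𝕜 A]
variable {X : Type*} [NormedAddCommGroup X] [NormedSpace 𝕜 X]

theorem fin_range_lift (i : A →ₗ[𝕜] X) (hi : Function.Injective i) (H : X →L[𝕜] X)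
    (L : X →ₗ[𝕜] A) (iL : ∀ x, i (L x) = H x)
    (hfin : FiniteDimensional 𝕜 (LinearMap.range (H : X →ₗ[𝕜] X))) :
    FiniteDimensional 𝕜 (LinearMap.range L) := by
  have h1 : i ∘ₗ L = (H : X →ₗ[𝕜] X) := LinearMap.ext iL
  have h2 : (LinearMap.range L).map i = LinearMap.range (H : X →ₗ[𝕜] X) := by
    rw [← LinearMap.range_comp, h1]
  have h3 : FiniteDimensional 𝕜 ((LinearMap.range L).map i) := by
    rw [h2]; exact hfin
  exact (Submodule.equivMapOfInjective i hi (LinearMap.range L)).symm.finiteDimensional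

/-- A bounded finite rank projection with smooth range is `∑ λ_k ⊗ e_k`. -/
theorem exists_dual_basis (i : A →ₗ[𝕜] X) (hi : Function.Injective i) (H : X →L[𝕜] X)
    (L : X →ₗ[𝕜] A) (iL : ∀ x, i (L x) = H x) (idem : ∀ x, L (H x) = L x)
    (hfin : FiniteDimensional 𝕜 (LinearMap.range (H : X →ₗ[𝕜] X))) :
    ∃ (e : Fin (finrank 𝕜 (LinearMap.range L)) → A)
      (lam : Fin (finrank 𝕜 (LinearMap.range L)) → (X →L[𝕜] 𝕜)),
      (∀ x, L x = ∑ k, lam k x • e k) ∧ (∀ k l, lam k (i (e l)) = if k = l then 1 else 0) ∧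
      (∀ k, L (i (e k)) = e k) ∧ (∀ k x, lam k (H x) = lam k x) := by
  have hfL := fin_range_lift i hi H L iL hfin
  let b := Module.finBasis 𝕜 (LinearMap.range L)
  have hφ : ∀ k, ∃ φ : A →ₗ[𝕜] 𝕜, ∀ y : LinearMap.range L, φ (y : A) = b.coord k y := by
    intro k
    obtain ⟨g, hg⟩ := LinearMap.exists_extend (b.coord k)
    exact ⟨g, fun y => congrArg (fun f : LinearMap.range L →ₗ[𝕜] 𝕜 => f y) hg⟩
  choose φ hφ using hφ
  choose lam hlam using fun k => exists_clm_comp i hi H hfin L iL (φ k)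
  have hLe : ∀ k, L (i ((b k : LinearMap.range L) : A)) = (b k : A) := by
    intro k
    obtain ⟨y, hy⟩ := (b k).2
    rw [← hy, iL, idem]
  refine ⟨fun k => (b k : A), lam, fun x => ?_, fun k l => ?_, hLe, fun k x => ?_⟩
  · have h1 : ∀ k, lam k x = b.repr ⟨L x, ⟨x, rfl⟩⟩ k := by
      intro k
      rw [hlam k x]
      exact hφ k ⟨L x, ⟨x, rfl⟩⟩
    simp only [h1]
    have h2 := congrArg Subtype.val (b.sum_repr ⟨L x, ⟨x, rfl⟩⟩)
    simp only [Submodule.coe_sum, Submodule.coe_smul] at h2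
    exact h2.symm
  · rw [hlam, hLe, hφ, Module.Basis.coord_apply, Module.Basis.repr_self, Finsupp.single_apply]
    simp only [eq_comm]
  · rw [hlam, hlam, idem]

end DualBasis

section Coh

variable {𝕜 : Type*} [RCLike 𝕜] {A0 A1 A2 X0 X1 X2 : Type*}
    [AddCommGroup A0] [Module 𝕜 A0] [AddCommGroup A1] [Module 𝕜 A1]
    [AddCommGroup A2] [Module 𝕜 A2]
    [NormedAddCommGroup X0] [NormedSpace 𝕜 X0] [NormedAddCommGroup X1] [NormedSpace 𝕜 X1]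
    [NormedAddCommGroup X2] [NormedSpace 𝕜 X2]
    {C : PComplex 𝕜 A0 A1 A2 X0 X1 X2}

/-- Constructor: the operators `P`, `R` are given on the Banach spaces only, `R` is smoothing. -/
theorem exists_PComplex_of_smoothing
    (i0 : A0 →ₗ[𝕜] X0) (i1 : A1 →ₗ[𝕜] X1) (i2 : A2 →ₗ[𝕜] X2)
    (inj0 : Function.Injective i0) (inj1 : Function.Injective i1) (inj2 : Function.Injective i2)
    (d0 : A0 →ₗ[𝕜] A1) (d1 : A1 →ₗ[𝕜] A2) (dd : ∀ a, d1 (d0 a) = 0)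
    (P0 : X1 →L[𝕜] X0) (P1 : X2 →L[𝕜] X1)
    (hP0 : ∀ a, P0 (i1 a) ∈ LinearMap.range i0) (hP1 : ∀ a, P1 (i2 a) ∈ LinearMap.range i1)
    (R0 : X0 →L[𝕜] X0) (R1 : X1 →L[𝕜] X1) (R2 : X2 →L[𝕜] X2)
    (c0 : IsCompactOperator R0) (c1 : IsCompactOperator R1) (c2 : IsCompactOperator R2)
    (hR0 : ∀ x, R0 x ∈ LinearMap.range i0) (hR1 : ∀ x, R1 x ∈ LinearMap.range i1)
    (hR2 : ∀ x, R2 x ∈ LinearMap.range i2)
    (h0 : ∀ a, P0 (i1 (d0 a)) = i0 a - R0 (i0 a))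
    (h1 : ∀ a b, i0 b = P0 (i1 a) → i1 (d0 b) + P1 (i2 (d1 a)) = i1 a - R1 (i1 a))
    (h2 : ∀ a b, i1 b = P1 (i2 a) → i2 (d1 b) = i2 a - R2 (i2 a)) :
    ∃ C : PComplex 𝕜 A0 A1 A2 X0 X1 X2, C.i0 = i0 ∧ C.i1 = i1 ∧ C.i2 = i2 ∧ C.d0 = d0 ∧
      C.d1 = d1 ∧ C.P0 = P0 ∧ C.P1 = P1 ∧ C.R0 = R0 ∧ C.R1 = R1 ∧ C.R2 = R2 := by
  obtain ⟨P0A, hP0A⟩ := exists_lift i0 inj0 ((P0 : X1 →ₗ[𝕜] X0) ∘ₗ i1) hP0
  obtain ⟨P1A, hP1A⟩ := exists_lift i1 inj1 ((P1 : X2 →ₗ[𝕜] X1) ∘ₗ i2) hP1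
  obtain ⟨R0A, hR0A⟩ := exists_lift i0 inj0 ((R0 : X0 →ₗ[𝕜] X0) ∘ₗ i0) (fun a => hR0 _)
  obtain ⟨R1A, hR1A⟩ := exists_lift i1 inj1 ((R1 : X1 →ₗ[𝕜] X1) ∘ₗ i1) (fun a => hR1 _)
  obtain ⟨R2A, hR2A⟩ := exists_lift i2 inj2 ((R2 : X2 →ₗ[𝕜] X2) ∘ₗ i2) (fun a => hR2 _)
  have hP0A' : ∀ a, i0 (P0A a) = P0 (i1 a) := hP0A
  have hP1A' : ∀ a, i1 (P1A a) = P1 (i2 a) := hP1A
  have hR0A' : ∀ a, i0 (R0A a) = R0 (i0 a) := hR0A
  have hR1A' : ∀ a, i1 (R1A a) = R1 (i1 a) := hR1A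
  have hR2A' : ∀ a, i2 (R2A a) = R2 (i2 a) := hR2A
  refine ⟨{ i0 := i0, i1 := i1, i2 := i2, d0 := d0, d1 := d1, P0 := P0, P1 := P1, P0A := P0A,
            P1A := P1A, R0 := R0, R1 := R1, R2 := R2, R0A := R0A, R1A := R1A, R2A := R2A,
            dd := dd, iP0 := hP0A', iP1 := hP1A',
            reg0 := ⟨inj0, c0, hR0A', ?_⟩
            reg1 := ⟨inj1, c1, hR1A', ?_⟩
            reg2 := ⟨inj2, c2, hR2A', ?_⟩
            h0 := ?_, h1 := ?_, h2 := ?_ }, rfl, rfl, rfl, rfl, rfl, rfl, rfl, rfl, rfl, rfl⟩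
  · intro x hx
    have := Submodule.add_mem _ hx (hR0 x)
    simpa using this
  · intro x hx
    have := Submodule.add_mem _ hx (hR1 x)
    simpa using this
  · intro x hx
    have := Submodule.add_mem _ hx (hR2 x)
    simpa using this
  · intro a
    apply inj0
    rw [hP0A', h0, map_sub, hR0A']
  · intro a
    apply inj1
    rw [map_add, hP1A', h1 a (P0A a) (hP0A' a), map_sub, hR1A']
  · intro a
    apply inj2
    rw [h2 a (P1A a) (hP1A' a), map_sub, hR2A']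

/-- `H^1 = ker d1 / im d0` -/
abbrev PComplex.Coh1 (C : PComplex 𝕜 A0 A1 A2 X0 X1 X2) :=
  ↥(LinearMap.ker C.d1) ⧸ (LinearMap.range C.d0).comap (LinearMap.ker C.d1).subtype

/-- `H^2 = A2 / im d1` -/
abbrev PComplex.Coh2 (C : PComplex 𝕜 A0 A1 A2 X0 X1 X2) :=
  A2 ⧸ LinearMap.range C.d1

/-- Euler characteristic of the complex of smooth sections. -/
noncomputable def PComplex.chi (C : PComplex 𝕜 A0 A1 A2 X0 X1 X2) : ℤ :=
  (finrank 𝕜 (LinearMap.ker C.d0) : ℤ) - finrank 𝕜 C.Coh1 + finrank 𝕜 C.Coh2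

namespace HodgeData

variable (h : HodgeData C)

theorem L0_of_closed {a : A0} (ha : C.d0 a = 0) : h.L0 (C.i0 a) = a := by
  have := h.eq0 a
  rw [ha, map_zero] at this
  exact (sub_eq_zero.1 this.symm).symm

theorem ker_d0 : LinearMap.ker C.d0 = LinearMap.range h.L0 := by
  apply le_antisymm
  · intro a ha
    exact ⟨C.i0 a, h.L0_of_closed ha⟩
  · rintro _ ⟨x, rfl⟩
    exact h.dL0 x

theorem exact0 {a : A0} (ha : C.d0 a = 0) (hL : h.L0 (C.i0 a) = 0) : a = 0 := by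
  rw [← h.L0_of_closed ha, hL]

theorem exact1 {a : A1} (ha : C.d1 a = 0) : (∃ b, C.d0 b = a) ↔ h.L1 (C.i1 a) = 0 := by
  constructor
  · rintro ⟨b, rfl⟩; exact h.Ld0 b
  · intro hL
    refine ⟨h.G0A a, ?_⟩
    have := h.eq1 a
    rw [ha, map_zero, add_zero, hL, sub_zero] at this
    exact this

theorem exact2 {a : A2} : (∃ b, C.d1 b = a) ↔ h.L2 (C.i2 a) = 0 := by
  constructor
  · rintro ⟨b, rfl⟩; exact h.Ld1 b
  · intro hL
    refine ⟨h.G1A a, ?_⟩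
    have := h.eq2 a
    rw [hL, sub_zero] at this
    exact this

/-- `H^1 ≃ range L1` -/
theorem exists_equiv1 : ∃ E : C.Coh1 ≃ₗ[𝕜] LinearMap.range h.L1,
    ∀ a : LinearMap.ker C.d1, (E (Submodule.Quotient.mk a) : A1) = h.L1 (C.i1 a) := by
  let f : LinearMap.ker C.d1 →ₗ[𝕜] LinearMap.range h.L1 :=
    h.L1.rangeRestrict ∘ₗ C.i1 ∘ₗ (LinearMap.ker C.d1).subtype
  have hker : LinearMap.ker f = (LinearMap.range C.d0).comap (LinearMap.ker C.d1).subtype := by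
    ext a
    have h1 : a ∈ LinearMap.ker f ↔ h.L1 (C.i1 a) = 0 := by
      rw [LinearMap.mem_ker, ← Subtype.coe_inj]; rfl
    rw [h1, ← h.exact1 a.2]; rfl
  have hsurj : Function.Surjective f := by
    rintro ⟨_, x, rfl⟩
    refine ⟨⟨h.L1 x, h.dL1 x⟩, ?_⟩
    apply Subtype.ext
    change h.L1 (C.i1 (h.L1 x)) = h.L1 x
    rw [h.iL1, h.idem1]
  refine ⟨(Submodule.quotEquivOfEq _ _ hker.symm).trans (f.quotKerEquivOfSurjective hsurj), ?_⟩
  intro a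
  rfl

/-- `H^2 ≃ range L2` -/
theorem exists_equiv2 : ∃ E : C.Coh2 ≃ₗ[𝕜] LinearMap.range h.L2,
    ∀ a : A2, (E (Submodule.Quotient.mk a) : A2) = h.L2 (C.i2 a) := by
  let f : A2 →ₗ[𝕜] LinearMap.range h.L2 := h.L2.rangeRestrict ∘ₗ C.i2
  have hker : LinearMap.ker f = LinearMap.range C.d1 := by
    ext a
    have h1 : a ∈ LinearMap.ker f ↔ h.L2 (C.i2 a) = 0 := by
      rw [LinearMap.mem_ker, ← Subtype.coe_inj]; rfl
    rw [h1, ← h.exact2]; rfl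
  have hsurj : Function.Surjective f := by
    rintro ⟨_, x, rfl⟩
    refine ⟨h.L2 x, ?_⟩
    apply Subtype.ext
    change h.L2 (C.i2 (h.L2 x)) = h.L2 x
    rw [h.iL2, h.idem2]
  refine ⟨(Submodule.quotEquivOfEq _ _ hker.symm).trans (f.quotKerEquivOfSurjective hsurj), ?_⟩
  intro a
  rfl

theorem finL0 : FiniteDimensional 𝕜 (LinearMap.range h.L0) :=
  fin_range_lift C.i0 C.reg0.inj h.H0 h.L0 h.iL0 h.fin0

theorem finL1 : FiniteDimensional 𝕜 (LinearMap.range h.L1) :=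
  fin_range_lift C.i1 C.reg1.inj h.H1 h.L1 h.iL1 h.fin1

theorem finL2 : FiniteDimensional 𝕜 (LinearMap.range h.L2) :=
  fin_range_lift C.i2 C.reg2.inj h.H2 h.L2 h.iL2 h.fin2

include h in
theorem fin_coh0 : FiniteDimensional 𝕜 (LinearMap.ker C.d0) := by
  rw [h.ker_d0]; exact h.finL0

include h in
theorem fin_coh1 : FiniteDimensional 𝕜 C.Coh1 := by
  obtain ⟨E, _⟩ := h.exists_equiv1
  have := h.finL1
  exact E.symm.finiteDimensional

include h in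
theorem fin_coh2 : FiniteDimensional 𝕜 C.Coh2 := by
  obtain ⟨E, _⟩ := h.exists_equiv2
  have := h.finL2
  exact E.symm.finiteDimensional

theorem finrank_coh0 : finrank 𝕜 (LinearMap.ker C.d0) = finrank 𝕜 (LinearMap.range h.L0) := by
  rw [h.ker_d0]

theorem finrank_coh1 : finrank 𝕜 C.Coh1 = finrank 𝕜 (LinearMap.range h.L1) := by
  obtain ⟨E, _⟩ := h.exists_equiv1
  exact E.finrank_eq

theorem finrank_coh2 : finrank 𝕜 C.Coh2 = finrank 𝕜 (LinearMap.range h.L2) := by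
  obtain ⟨E, _⟩ := h.exists_equiv2
  exact E.finrank_eq

theorem chi_eq : C.chi = (finrank 𝕜 (LinearMap.range h.L0) : ℤ) -
    finrank 𝕜 (LinearMap.range h.L1) + finrank 𝕜 (LinearMap.range h.L2) := by
  rw [PComplex.chi, h.finrank_coh0, h.finrank_coh1, h.finrank_coh2]

/-- Dual bases for the three harmonic projections.  The `e`s are smooth and closed, the
`lam`s are bounded functionals vanishing on exact smooth sections. -/
theorem exists_bases0 :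
    ∃ (e : Fin (finrank 𝕜 (LinearMap.ker C.d0)) → A0)
      (lam : Fin (finrank 𝕜 (LinearMap.ker C.d0)) → (X0 →L[𝕜] 𝕜)),
      (∀ x, h.L0 x = ∑ k, lam k x • e k) ∧ (∀ k l, lam k (C.i0 (e l)) = if k = l then 1 else 0) ∧
      (∀ k, C.d0 (e k) = 0) ∧ (∀ k x, lam k (h.H0 x) = lam k x) := by
  rw [h.finrank_coh0]
  obtain ⟨e, lam, h1, h2, h3, h4⟩ :=
    exists_dual_basis C.i0 C.reg0.inj h.H0 h.L0 h.iL0 h.idem0 h.fin0
  exact ⟨e, lam, h1, h2, fun k => by rw [← h3 k]; exact h.dL0 _, h4⟩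

theorem exists_bases1 :
    ∃ (e : Fin (finrank 𝕜 C.Coh1) → A1) (lam : Fin (finrank 𝕜 C.Coh1) → (X1 →L[𝕜] 𝕜)),
      (∀ x, h.L1 x = ∑ k, lam k x • e k) ∧ (∀ k l, lam k (C.i1 (e l)) = if k = l then 1 else 0) ∧
      (∀ k, C.d1 (e k) = 0) ∧ (∀ k a, lam k (C.i1 (C.d0 a)) = 0) ∧
      (∀ k x, lam k (h.H1 x) = lam k x) := by
  rw [h.finrank_coh1]
  obtain ⟨e, lam, h1, h2, h3, h4⟩ :=
    exists_dual_basis C.i1 C.reg1.inj h.H1 h.L1 h.iL1 h.idem1 h.fin1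
  refine ⟨e, lam, h1, h2, fun k => by rw [← h3 k]; exact h.dL1 _, fun k a => ?_, h4⟩
  rw [← h4, ← h.iL1, h.Ld0, map_zero, map_zero]

theorem exists_bases2 :
    ∃ (e : Fin (finrank 𝕜 C.Coh2) → A2) (lam : Fin (finrank 𝕜 C.Coh2) → (X2 →L[𝕜] 𝕜)),
      (∀ x, h.L2 x = ∑ k, lam k x • e k) ∧ (∀ k l, lam k (C.i2 (e l)) = if k = l then 1 else 0) ∧
      (∀ k a, lam k (C.i2 (C.d1 a)) = 0) ∧ (∀ k x, lam k (h.H2 x) = lam k x) := by
  rw [h.finrank_coh2]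
  obtain ⟨e, lam, h1, h2, h3, h4⟩ :=
    exists_dual_basis C.i2 C.reg2.inj h.H2 h.L2 h.iL2 h.idem2 h.fin2
  refine ⟨e, lam, h1, h2, fun k a => ?_, h4⟩
  rw [← h4, ← h.iL2, h.Ld1, map_zero, map_zero]

/-! ### closures of the graphs -/

/-- closure of the graph of `d0` in `X0 × X1` -/
def _root_.Vale.Agent.P267.H285.PComplex.graph0 (C : PComplex 𝕜 A0 A1 A2 X0 X1 X2) :
    Set (X0 × X1) := closure (Set.range fun a => (C.i0 a, C.i1 (C.d0 a)))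

/-- closure of the graph of `d1` in `X1 × X2` -/
def _root_.Vale.Agent.P267.H285.PComplex.graph1 (C : PComplex 𝕜 A0 A1 A2 X0 X1 X2) :
    Set (X1 × X2) := closure (Set.range fun a => (C.i1 a, C.i2 (C.d1 a)))

theorem graph0_eq {x : X0} {y : X1} (hxy : (x, y) ∈ C.graph0) :
    h.G0 y = x - h.H0 x ∧ h.H1 y = 0 := by
  have hcl : IsClosed {p : X0 × X1 | h.G0 p.2 = p.1 - h.H0 p.1 ∧ h.H1 p.2 = 0} :=
    (isClosed_eq (by fun_prop) (by fun_prop)).inter (isClosed_eq (by fun_prop) (by fun_prop))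
  have hsub : (Set.range fun a => (C.i0 a, C.i1 (C.d0 a))) ⊆
      {p : X0 × X1 | h.G0 p.2 = p.1 - h.H0 p.1 ∧ h.H1 p.2 = 0} := by
    rintro _ ⟨a, rfl⟩
    refine ⟨?_, ?_⟩
    · change h.G0 (C.i1 (C.d0 a)) = C.i0 a - h.H0 (C.i0 a)
      rw [← h.iG0, h.eq0, map_sub, h.iL0]
    · change h.H1 (C.i1 (C.d0 a)) = 0
      rw [← h.iL1, h.Ld0, map_zero]
  exact closure_minimal hsub hcl hxy

theorem graph1_eq {x : X1} {y : X2} (hxy : (x, y) ∈ C.graph1) :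
    (h.G0 x, x - h.H1 x - h.G1 y) ∈ C.graph0 ∧ h.H2 y = 0 := by
  let f : X1 × X2 → X0 × X1 := fun p => (h.G0 p.1, p.1 - h.H1 p.1 - h.G1 p.2)
  have hf : Continuous f := by fun_prop
  have hcl : IsClosed {p : X1 × X2 | f p ∈ C.graph0 ∧ h.H2 p.2 = 0} :=
    (isClosed_closure.preimage hf).inter (isClosed_eq (by fun_prop) (by fun_prop))
  have hsub : (Set.range fun a => (C.i1 a, C.i2 (C.d1 a))) ⊆
      {p : X1 × X2 | f p ∈ C.graph0 ∧ h.H2 p.2 = 0} := by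
    rintro _ ⟨a, rfl⟩
    refine ⟨?_, ?_⟩
    · change (h.G0 (C.i1 a), C.i1 a - h.H1 (C.i1 a) - h.G1 (C.i2 (C.d1 a))) ∈ C.graph0
      refine subset_closure ⟨h.G0A a, ?_⟩
      have := h.eq1 a
      have h2 : C.d0 (h.G0A a) = a - h.L1 (C.i1 a) - h.G1A (C.d1 a) := by rw [← this]; abel
      simp only [Prod.mk.injEq]
      refine ⟨h.iG0 a, ?_⟩
      rw [h2, map_sub, map_sub, h.iL1, h.iG1]
    · change h.H2 (C.i2 (C.d1 a)) = 0
      rw [← h.iL2, h.Ld1, map_zero]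
  exact closure_minimal hsub hcl hxy

theorem graph2_eq {x : X2} (hx : x ∈ closure (Set.range C.i2)) :
    (h.G1 x, x - h.H2 x) ∈ C.graph1 := by
  let f : X2 → X1 × X2 := fun p => (h.G1 p, p - h.H2 p)
  have hf : Continuous f := by fun_prop
  have hcl : IsClosed {p : X2 | f p ∈ C.graph1} := isClosed_closure.preimage hf
  have hsub : Set.range C.i2 ⊆ {p : X2 | f p ∈ C.graph1} := by
    rintro _ ⟨a, rfl⟩
    change (h.G1 (C.i2 a), C.i2 a - h.H2 (C.i2 a)) ∈ C.graph1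
    refine subset_closure ⟨h.G1A a, ?_⟩
    simp only [Prod.mk.injEq]
    refine ⟨h.iG1 a, ?_⟩
    rw [h.eq2, map_sub, h.iL2]
  exact closure_minimal hsub hcl hx

end HodgeData

end Coh

end Vale.Agent.P267.H285
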