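import Vale.Agent.P267.H285.Riesz

/-!
# Complexes of Banach spaces with a parametrix with compact remainder

helper285, package RRK-BAN.  Three-term complex `A0 → A1 → A2` (smooth sections, no topology)
included in Banach spaces `X0, X1, X2` (continuous sections), with bounded `P` and compact `R`,
`dP + Pd = 1 - R`.  Output: bounded `G`, finite rank `H` with `dG + Gd = 1 - H`, `dH = Hd = 0`.
-/

namespace Vale.Agent.P267.H285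

open Module Filter Topology

section Reg

variable {𝕜 : Type*} [RCLike 𝕜]
variable {A : Type*} [AddCommGroup A] [Module 𝕜 A]
variable {X : Type*} [NormedAddCommGroup X] [NormedSpace 𝕜 X]
variable {Y : Type*} [AddCommGroup Y] [Module 𝕜 Y]

theorem exists_lift (i : A →ₗ[𝕜] X) (hi : Function.Injective i) (f : Y →ₗ[𝕜] X)
    (h : ∀ y, f y ∈ LinearMap.range i) : ∃ g : Y →ₗ[𝕜] A, ∀ y, i (g y) = f y := by
  refine ⟨(LinearEquiv.ofInjective i hi).symm.toLinearMap ∘ₗ f.codRestrict _ h, fun y => ?_⟩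
  have := (LinearEquiv.ofInjective i hi).apply_symm_apply (f.codRestrict _ h y)
  exact congrArg Subtype.val this

/-- A linear map on `A` composed with a lift to `A` of a bounded operator of finite rank is
bounded. -/
theorem exists_clm_comp {Z : Type*} [NormedAddCommGroup Z] [NormedSpace 𝕜 Z]
    {X' : Type*} [NormedAddCommGroup X'] [NormedSpace 𝕜 X']
    (i : A →ₗ[𝕜] X) (hi : Function.Injective i) (Pi : X' →L[𝕜] X)
    (hfin : FiniteDimensional 𝕜 (LinearMap.range (Pi : X' →ₗ[𝕜] X))) (L : X' →ₗ[𝕜] A)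
    (hL : ∀ x, i (L x) = Pi x) (φ : A →ₗ[𝕜] Z) : ∃ Φ : X' →L[𝕜] Z, ∀ x, Φ x = φ (L x) := by
  obtain ⟨σ, hσ⟩ := exists_lift i hi (LinearMap.range (Pi : X' →ₗ[𝕜] X)).subtype (by
    rintro ⟨_, x, rfl⟩
    exact ⟨L x, hL x⟩)
  refine ⟨(LinearMap.toContinuousLinearMap (φ ∘ₗ σ)).comp
    (Pi.codRestrict (LinearMap.range (Pi : X' →ₗ[𝕜] X)) (fun x => ⟨x, rfl⟩)), fun x => ?_⟩
  have h1 : σ (Pi.codRestrict (LinearMap.range (Pi : X' →ₗ[𝕜] X)) (fun x => ⟨x, rfl⟩) x) = L x := by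
    apply hi
    rw [hσ, hL]; rfl
  exact congrArg φ h1

/-- A compact operator `R` on `X` preserving the subspace `A` and such that `1 - R` is
hypoelliptic with respect to `A`. -/
structure Reg (i : A →ₗ[𝕜] X) (R : X →L[𝕜] X) (RA : A →ₗ[𝕜] A) : Prop where
  inj : Function.Injective i
  cpt : IsCompactOperator R
  comm : ∀ a, i (RA a) = R (i a)
  reg : ∀ x, x - R x ∈ LinearMap.range i → x ∈ LinearMap.range i

/-- Riesz data of `1 - R` on `X` and on `A`. -/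
structure RegRiesz (i : A →ₗ[𝕜] X) (R : X →L[𝕜] X) (RA : A →ₗ[𝕜] A) where
  n : ℕ
  Pi : X →L[𝕜] X
  S : X →L[𝕜] X
  PiA : A →ₗ[𝕜] A
  SA : A →ₗ[𝕜] A
  L : X →ₗ[𝕜] A
  inj : Function.Injective i
  alg : AlgRiesz ((1 - R : X →L[𝕜] X) : X →ₗ[𝕜] X) (Pi : X →ₗ[𝕜] X) (S : X →ₗ[𝕜] X) n
  algA : AlgRiesz (1 - RA) PiA SA n
  fin : FiniteDimensional 𝕜 (LinearMap.range (Pi : X →ₗ[𝕜] X))
  iPi : ∀ a, i (PiA a) = Pi (i a)
  iS : ∀ a, i (SA a) = S (i a)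
  iL : ∀ x, i (L x) = Pi x
  Li : ∀ a, L (i a) = PiA a
  PiL : ∀ x, PiA (L x) = L x

theorem Reg.exists_regRiesz [CompleteSpace X] {i : A →ₗ[𝕜] X} {R : X →L[𝕜] X}
    {RA : A →ₗ[𝕜] A} (h : Reg i R RA) : Nonempty (RegRiesz i R RA) := by
  obtain ⟨n, Pi, S, hA, hfin⟩ := exists_riesz R h.cpt
  have hT : ∀ x, ((1 - R : X →L[𝕜] X) : X →ₗ[𝕜] X) x = x - R x := fun x => rfl
  have hPi : ∀ x, Pi x ∈ LinearMap.range i := by
    intro x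
    -- powers
    have key : ∀ m (y : X), (((1 - R : X →L[𝕜] X) : X →ₗ[𝕜] X) ^ m) y = 0 →
        y ∈ LinearMap.range i := by
      intro m
      induction m with
      | zero =>
        intro y hy
        have : y = 0 := by simpa using hy
        rw [this]; exact Submodule.zero_mem _
      | succ m ih =>
        intro y hy
        apply h.reg
        rw [← hT]
        apply ih
        rw [pow_succ] at hy; exact hy
    exact key n _ (hA.nil x)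
  have hS : ∀ a, S (i a) ∈ LinearMap.range i := by
    intro a
    apply h.reg
    have := hA.TS (i a)
    rw [hT] at this
    change S (i a) - R (S (i a)) = i a - Pi (i a) at this
    rw [this]
    exact Submodule.sub_mem _ ⟨a, rfl⟩ (hPi _)
  obtain ⟨L, hL⟩ := exists_lift i h.inj (Pi : X →ₗ[𝕜] X) hPi
  obtain ⟨SA, hSA⟩ := exists_lift i h.inj ((S : X →ₗ[𝕜] X) ∘ₗ i) hS
  have hTA : ∀ a, i ((1 - RA) a) = ((1 - R : X →L[𝕜] X) : X →ₗ[𝕜] X) (i a) := by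
    intro a
    simp [h.comm]
  have hTAn : ∀ m a, i (((1 - RA) ^ m) a) = (((1 - R : X →L[𝕜] X) : X →ₗ[𝕜] X) ^ m) (i a) :=
    fun m a => AlgRiesz.pow_intertwine (T := 1 - RA) hTA m a
  have hL' : ∀ x, i (L x) = (Pi : X →ₗ[𝕜] X) x := hL
  have hSA' : ∀ a, i (SA a) = (S : X →ₗ[𝕜] X) (i a) := hSA
  refine ⟨{ n := n, Pi := Pi, S := S, PiA := L ∘ₗ i, SA := SA, L := L, inj := h.inj, alg := hA,
            algA := ?_, fin := hfin, iPi := fun a => hL _, iS := hSA, iL := hL,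
            Li := fun a => rfl, PiL := ?_ }⟩
  · refine ⟨fun a => ?_, fun a => ?_, fun a => ?_, fun a => ?_, fun a => ?_, fun a => ?_⟩ <;>
      apply h.inj
    · rw [hTAn, LinearMap.comp_apply, hL', hA.nil, map_zero]
    · rw [LinearMap.comp_apply, LinearMap.comp_apply, hL', hL', hA.idem]
    · rw [hTA, hSA', hA.TS, map_sub, LinearMap.comp_apply, hL']
    · rw [hSA', hTA, hA.ST, map_sub, LinearMap.comp_apply, hL']
    · rw [LinearMap.comp_apply, hL', hSA', hA.PiS, map_zero]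
    · rw [hSA', LinearMap.comp_apply, hL', hA.SPi, map_zero]
  · intro x
    apply h.inj
    rw [LinearMap.comp_apply, hL', hL', hA.idem]

end Reg

section GenInv

variable {k : Type*} [Field k] {V W : Type*} [AddCommGroup V] [Module k V]
  [AddCommGroup W] [Module k W]

/-- Every linear map of vector spaces has a generalised inverse. -/
theorem exists_genInv (f : V →ₗ[k] W) : ∃ g : W →ₗ[k] V, ∀ x, f (g (f x)) = f x := by
  obtain ⟨s, hs⟩ := LinearMap.exists_rightInverse_of_surjective f.rangeRestrict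
    f.range_rangeRestrict
  obtain ⟨g, hg⟩ := LinearMap.exists_extend s
  refine ⟨g, fun x => ?_⟩
  have h1 : g (f x) = s ⟨f x, ⟨x, rfl⟩⟩ :=
    congrArg (fun L : LinearMap.range f →ₗ[k] V => L ⟨f x, ⟨x, rfl⟩⟩) hg
  have h2 : f.rangeRestrict (s ⟨f x, ⟨x, rfl⟩⟩) = ⟨f x, ⟨x, rfl⟩⟩ :=
    congrArg (fun L : LinearMap.range f →ₗ[k] LinearMap.range f => L ⟨f x, ⟨x, rfl⟩⟩) hs
  rw [h1]
  exact congrArg Subtype.val h2

end GenInv

section Complex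

/-- Three-term complex with parametrix `P` and compact remainder `R`. -/
structure PComplex (𝕜 : Type*) [RCLike 𝕜] (A0 A1 A2 X0 X1 X2 : Type*)
    [AddCommGroup A0] [Module 𝕜 A0] [AddCommGroup A1] [Module 𝕜 A1]
    [AddCommGroup A2] [Module 𝕜 A2]
    [NormedAddCommGroup X0] [NormedSpace 𝕜 X0] [NormedAddCommGroup X1] [NormedSpace 𝕜 X1]
    [NormedAddCommGroup X2] [NormedSpace 𝕜 X2] where
  i0 : A0 →ₗ[𝕜] X0
  i1 : A1 →ₗ[𝕜] X1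
  i2 : A2 →ₗ[𝕜] X2
  d0 : A0 →ₗ[𝕜] A1
  d1 : A1 →ₗ[𝕜] A2
  P0 : X1 →L[𝕜] X0
  P1 : X2 →L[𝕜] X1
  P0A : A1 →ₗ[𝕜] A0
  P1A : A2 →ₗ[𝕜] A1
  R0 : X0 →L[𝕜] X0
  R1 : X1 →L[𝕜] X1
  R2 : X2 →L[𝕜] X2
  R0A : A0 →ₗ[𝕜] A0
  R1A : A1 →ₗ[𝕜] A1
  R2A : A2 →ₗ[𝕜] A2
  dd : ∀ a, d1 (d0 a) = 0
  iP0 : ∀ a, i0 (P0A a) = P0 (i1 a)
  iP1 : ∀ a, i1 (P1A a) = P1 (i2 a)
  reg0 : Reg i0 R0 R0A
  reg1 : Reg i1 R1 R1A
  reg2 : Reg i2 R2 R2A
  h0 : ∀ a, P0A (d0 a) = a - R0A a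
  h1 : ∀ a, d0 (P0A a) + P1A (d1 a) = a - R1A a
  h2 : ∀ a, d1 (P1A a) = a - R2A a

variable {𝕜 : Type*} [RCLike 𝕜] {A0 A1 A2 X0 X1 X2 : Type*}
    [AddCommGroup A0] [Module 𝕜 A0] [AddCommGroup A1] [Module 𝕜 A1]
    [AddCommGroup A2] [Module 𝕜 A2]
    [NormedAddCommGroup X0] [NormedSpace 𝕜 X0] [NormedAddCommGroup X1] [NormedSpace 𝕜 X1]
    [NormedAddCommGroup X2] [NormedSpace 𝕜 X2]

/-- The normalised output: `G` bounded, `H` of finite rank, `dG + Gd = 1 - H`, `dH = Hd = 0`. -/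
structure HodgeData (C : PComplex 𝕜 A0 A1 A2 X0 X1 X2) where
  /-- Green operators on continuous sections -/
  G0 : X1 →L[𝕜] X0
  G1 : X2 →L[𝕜] X1
  /-- and on smooth sections -/
  G0A : A1 →ₗ[𝕜] A0
  G1A : A2 →ₗ[𝕜] A1
  iG0 : ∀ a, C.i0 (G0A a) = G0 (C.i1 a)
  iG1 : ∀ a, C.i1 (G1A a) = G1 (C.i2 a)
  /-- harmonic projections on continuous sections, with values in smooth sections -/
  H0 : X0 →L[𝕜] X0
  H1 : X1 →L[𝕜] X1
  H2 : X2 →L[𝕜] X2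
  L0 : X0 →ₗ[𝕜] A0
  L1 : X1 →ₗ[𝕜] A1
  L2 : X2 →ₗ[𝕜] A2
  iL0 : ∀ x, C.i0 (L0 x) = H0 x
  iL1 : ∀ x, C.i1 (L1 x) = H1 x
  iL2 : ∀ x, C.i2 (L2 x) = H2 x
  fin0 : FiniteDimensional 𝕜 (LinearMap.range (H0 : X0 →ₗ[𝕜] X0))
  fin1 : FiniteDimensional 𝕜 (LinearMap.range (H1 : X1 →ₗ[𝕜] X1))
  fin2 : FiniteDimensional 𝕜 (LinearMap.range (H2 : X2 →ₗ[𝕜] X2))
  idem0 : ∀ x, L0 (H0 x) = L0 x
  idem1 : ∀ x, L1 (H1 x) = L1 x
  idem2 : ∀ x, L2 (H2 x) = L2 x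
  dL0 : ∀ x, C.d0 (L0 x) = 0
  dL1 : ∀ x, C.d1 (L1 x) = 0
  Ld0 : ∀ a, L1 (C.i1 (C.d0 a)) = 0
  Ld1 : ∀ a, L2 (C.i2 (C.d1 a)) = 0
  eq0 : ∀ a, G0A (C.d0 a) = a - L0 (C.i0 a)
  eq1 : ∀ a, C.d0 (G0A a) + G1A (C.d1 a) = a - L1 (C.i1 a)
  eq2 : ∀ a, C.d1 (G1A a) = a - L2 (C.i2 a)
  /-- structure of `G`: parametrix + remainder ∘ bounded + smooth finite rank -/
  B0 : X1 →L[𝕜] X0
  B1 : X2 →L[𝕜] X1
  F0 : X1 →ₗ[𝕜] A0
  F1 : X2 →ₗ[𝕜] A1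
  finF0 : FiniteDimensional 𝕜 (LinearMap.range F0)
  finF1 : FiniteDimensional 𝕜 (LinearMap.range F1)
  struc0 : ∀ x, G0 x = C.P0 x + C.R0 (B0 x) + C.i0 (F0 x)
  struc1 : ∀ x, G1 x = C.P1 x + C.R1 (B1 x) + C.i1 (F1 x)
  /-- link with the Riesz data of `1 - R` -/
  z0 : RegRiesz C.i0 C.R0 C.R0A
  z1 : RegRiesz C.i1 C.R1 C.R1A
  z2 : RegRiesz C.i2 C.R2 C.R2A
  K0 : X1 →L[𝕜] X0
  K1 : X2 →L[𝕜] X1
  Gdef0 : ∀ x, G0 x = z0.S (C.P0 x) + K0 x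
  Gdef1 : ∀ x, G1 x = z1.S (C.P1 x) + K1 x
  K0Pi : ∀ x, K0 (z1.Pi x) = K0 x
  K1Pi : ∀ x, K1 (z2.Pi x) = K1 x
  H0Pi : ∀ x, H0 (z0.Pi x) = H0 x
  H1Pi : ∀ x, H1 (z1.Pi x) = H1 x
  H2Pi : ∀ x, H2 (z2.Pi x) = H2 x

/-- In the Riesz data, `S = 1 - Π + R S`. -/
theorem RegRiesz.S_eq {A X : Type*} [AddCommGroup A] [Module 𝕜 A]
    [NormedAddCommGroup X] [NormedSpace 𝕜 X] {i : A →ₗ[𝕜] X} {R : X →L[𝕜] X} {RA : A →ₗ[𝕜] A}
    (z : RegRiesz i R RA) (x : X) : z.S x = x - z.Pi x + R (z.S x) := by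
  have h : z.S x - R (z.S x) = x - z.Pi x := z.alg.TS x
  rw [← h]; abel

theorem RegRiesz.LPi {A X : Type*} [AddCommGroup A] [Module 𝕜 A]
    [NormedAddCommGroup X] [NormedSpace 𝕜 X] {i : A →ₗ[𝕜] X} {R : X →L[𝕜] X} {RA : A →ₗ[𝕜] A}
    (z : RegRiesz i R RA) (x : X) : z.L (z.Pi x) = z.L x := by
  apply z.inj
  rw [z.iL, z.iL]
  exact z.alg.idem x

theorem RegRiesz.finL {A X : Type*} [AddCommGroup A] [Module 𝕜 A]
    [NormedAddCommGroup X] [NormedSpace 𝕜 X] {i : A →ₗ[𝕜] X} {R : X →L[𝕜] X} {RA : A →ₗ[𝕜] A}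
    (z : RegRiesz i R RA) : FiniteDimensional 𝕜 (LinearMap.range z.L) := by
  have h1 : i ∘ₗ z.L = (z.Pi : X →ₗ[𝕜] X) := LinearMap.ext z.iL
  have h2 : (LinearMap.range z.L).map i = LinearMap.range (z.Pi : X →ₗ[𝕜] X) := by
    rw [← LinearMap.range_comp, h1]
  have h3 : FiniteDimensional 𝕜 ((LinearMap.range z.L).map i) := by
    rw [h2]; exact z.fin
  exact (Submodule.equivMapOfInjective i z.inj (LinearMap.range z.L)).symm.finiteDimensional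

theorem fin_range_of_comp {A X Y : Type*} [AddCommGroup A] [Module 𝕜 A] [AddCommGroup Y]
    [Module 𝕜 Y] [AddCommGroup X] [Module 𝕜 X]
    (φ : A →ₗ[𝕜] Y) (L : X →ₗ[𝕜] A) (H : X →ₗ[𝕜] Y)
    (hL : FiniteDimensional 𝕜 (LinearMap.range L)) (hH : ∀ x, H x = φ (L x)) :
    FiniteDimensional 𝕜 (LinearMap.range H) := by
  have h1 : H = φ ∘ₗ L := LinearMap.ext hH
  rw [h1, LinearMap.range_comp]
  infer_instance

theorem fin_range_sub {X Y : Type*} [AddCommGroup Y]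
    [Module 𝕜 Y] [AddCommGroup X] [Module 𝕜 X] (f g : X →ₗ[𝕜] Y)
    (hf : FiniteDimensional 𝕜 (LinearMap.range f)) (hg : FiniteDimensional 𝕜 (LinearMap.range g)) :
    FiniteDimensional 𝕜 (LinearMap.range (f - g)) := by
  have hle : LinearMap.range (f - g) ≤ LinearMap.range f ⊔ LinearMap.range g := by
    rintro _ ⟨x, rfl⟩
    exact Submodule.sub_mem _ (Submodule.mem_sup_left ⟨x, rfl⟩) (Submodule.mem_sup_right ⟨x, rfl⟩)
  exact Submodule.finiteDimensional_of_le hle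

theorem fin_range_comp_right {X Y Z : Type*} [AddCommGroup Y]
    [Module 𝕜 Y] [AddCommGroup X] [Module 𝕜 X] [AddCommGroup Z] [Module 𝕜 Z]
    (f : X →ₗ[𝕜] Y) (g : Z →ₗ[𝕜] X)
    (hf : FiniteDimensional 𝕜 (LinearMap.range f)) :
    FiniteDimensional 𝕜 (LinearMap.range (f ∘ₗ g)) :=
  Submodule.finiteDimensional_of_le (LinearMap.range_comp_le_range g f)

/-- **Main theorem**: existence of normalised Hodge data. -/
theorem PComplex.exists_hodge [CompleteSpace X0] [CompleteSpace X1] [CompleteSpace X2]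
    (C : PComplex 𝕜 A0 A1 A2 X0 X1 X2) : Nonempty (HodgeData C) := by
  obtain ⟨z0⟩ := C.reg0.exists_regRiesz
  obtain ⟨z1⟩ := C.reg1.exists_regRiesz
  obtain ⟨z2⟩ := C.reg2.exists_regRiesz
  -- intertwining
  have hd0T : ∀ a, C.d0 ((1 - C.R0A) a) = (1 - C.R1A) (C.d0 a) := by
    intro a
    change C.d0 (a - C.R0A a) = C.d0 a - C.R1A (C.d0 a)
    rw [← C.h0, ← C.h1, C.dd, map_zero, add_zero]
  have hd1T : ∀ a, C.d1 ((1 - C.R1A) a) = (1 - C.R2A) (C.d1 a) := by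
    intro a
    change C.d1 (a - C.R1A a) = C.d1 a - C.R2A (C.d1 a)
    rw [← C.h1, ← C.h2, map_add, C.dd, zero_add]
  have hd0Pi : ∀ a, C.d0 (z0.PiA a) = z1.PiA (C.d0 a) := z0.algA.intertwine_Pi z1.algA hd0T
  have hd1Pi : ∀ a, C.d1 (z1.PiA a) = z2.PiA (C.d1 a) := z1.algA.intertwine_Pi z2.algA hd1T
  have hd0S : ∀ a, C.d0 (z0.SA a) = z1.SA (C.d0 a) := z0.algA.intertwine_S z1.algA hd0T
  have hd1S : ∀ a, C.d1 (z1.SA a) = z2.SA (C.d1 a) := z1.algA.intertwine_S z2.algA hd1T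
  have id0 : ∀ a, z0.PiA (z0.PiA a) = z0.PiA a := z0.algA.idem
  have id1 : ∀ a, z1.PiA (z1.PiA a) = z1.PiA a := z1.algA.idem
  have id2 : ∀ a, z2.PiA (z2.PiA a) = z2.PiA a := z2.algA.idem
  -- un-normalised homotopy on A
  have e0 : ∀ a, z0.SA (C.P0A (C.d0 a)) = a - z0.PiA a := by
    intro a; rw [C.h0]; exact z0.algA.ST a
  have e1 : ∀ a, C.d0 (z0.SA (C.P0A a)) + z1.SA (C.P1A (C.d1 a)) = a - z1.PiA a := by
    intro a; rw [hd0S, ← map_add, C.h1]; exact z1.algA.ST a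
  have e2 : ∀ a, C.d1 (z1.SA (C.P1A a)) = a - z2.PiA a := by
    intro a; rw [hd1S, C.h2]; exact z2.algA.ST a
  -- generalised inverses on the finite dimensional part
  obtain ⟨g0, hg0⟩ := exists_genInv C.d0
  obtain ⟨g1, hg1⟩ := exists_genInv C.d1
  let h1 : A2 →ₗ[𝕜] A1 := z1.PiA ∘ₗ g1 ∘ₗ z2.PiA
  let h0 : A1 →ₗ[𝕜] A0 := z0.PiA ∘ₗ g0 ∘ₗ z1.PiA ∘ₗ (LinearMap.id - h1 ∘ₗ C.d1)
  have h1def : ∀ a, h1 a = z1.PiA (g1 (z2.PiA a)) := fun a => rfl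
  have h0def : ∀ a, h0 a = z0.PiA (g0 (z1.PiA (a - h1 (C.d1 a)))) := fun a => rfl
  have h1Pi : ∀ a, h1 (z2.PiA a) = h1 a := by intro a; rw [h1def, h1def, id2]
  have Pih1 : ∀ a, z1.PiA (h1 a) = h1 a := by intro a; rw [h1def, id1]
  have Pih0 : ∀ a, z0.PiA (h0 a) = h0 a := by intro a; rw [h0def, id0]
  have d1h1d1 : ∀ a, C.d1 (h1 (C.d1 a)) = C.d1 (z1.PiA a) := by
    intro a
    rw [h1def, hd1Pi, ← hd1Pi a, hg1, hd1Pi, id2, ← hd1Pi]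
  have h0Pi : ∀ a, h0 (z1.PiA a) = h0 a := by
    intro a
    rw [h0def, h0def, hd1Pi, h1Pi]
    congr 2
    rw [map_sub, map_sub, id1]
  have h0d0 : ∀ a, h0 (C.d0 a) = z0.PiA (g0 (z1.PiA (C.d0 a))) := by
    intro a; rw [h0def, C.dd, map_zero, sub_zero]
  have d0h0d0 : ∀ a, C.d0 (h0 (C.d0 a)) = C.d0 (z0.PiA a) := by
    intro a
    rw [h0d0, hd0Pi, ← hd0Pi a, hg0, hd0Pi, id1, ← hd0Pi]
  have h0h1d1 : ∀ a, h0 (h1 (C.d1 a)) = 0 := by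
    intro a
    rw [h0def, d1h1d1, hd1Pi, h1Pi, sub_self, map_zero, map_zero, map_zero]
  -- lifts
  have Li0 := z0.Li
  have Li1 := z1.Li
  have Li2 := z2.Li
  let L0 : X0 →ₗ[𝕜] A0 := (LinearMap.id - h0 ∘ₗ C.d0) ∘ₗ z0.L
  let L1 : X1 →ₗ[𝕜] A1 := (LinearMap.id - C.d0 ∘ₗ h0 - h1 ∘ₗ C.d1) ∘ₗ z1.L
  let L2 : X2 →ₗ[𝕜] A2 := (LinearMap.id - C.d1 ∘ₗ h1) ∘ₗ z2.L
  have L0def : ∀ x, L0 x = z0.L x - h0 (C.d0 (z0.L x)) := fun x => rfl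
  have L1def : ∀ x, L1 x = z1.L x - C.d0 (h0 (z1.L x)) - h1 (C.d1 (z1.L x)) := fun x => rfl
  have L2def : ∀ x, L2 x = z2.L x - C.d1 (h1 (z2.L x)) := fun x => rfl
  obtain ⟨H0, hH0⟩ := exists_clm_comp C.i0 z0.inj z0.Pi z0.fin z0.L z0.iL
    (C.i0 ∘ₗ (LinearMap.id - h0 ∘ₗ C.d0))
  obtain ⟨H1, hH1⟩ := exists_clm_comp C.i1 z1.inj z1.Pi z1.fin z1.L z1.iL
    (C.i1 ∘ₗ (LinearMap.id - C.d0 ∘ₗ h0 - h1 ∘ₗ C.d1))
  obtain ⟨H2, hH2⟩ := exists_clm_comp C.i2 z2.inj z2.Pi z2.fin z2.L z2.iL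
    (C.i2 ∘ₗ (LinearMap.id - C.d1 ∘ₗ h1))
  have iL0 : ∀ x, C.i0 (L0 x) = H0 x := fun x => (hH0 x).symm
  have iL1 : ∀ x, C.i1 (L1 x) = H1 x := fun x => (hH1 x).symm
  have iL2 : ∀ x, C.i2 (L2 x) = H2 x := fun x => (hH2 x).symm
  obtain ⟨K0, hK0⟩ := exists_clm_comp C.i1 z1.inj z1.Pi z1.fin z1.L z1.iL (C.i0 ∘ₗ h0)
  obtain ⟨K1, hK1⟩ := exists_clm_comp C.i2 z2.inj z2.Pi z2.fin z2.L z2.iL (C.i1 ∘ₗ h1)
  have hfinL0 := z0.finL
  have hfinL1 := z1.finL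
  have hfinL2 := z2.finL
  have Li0' : ∀ a, L0 (C.i0 a) = z0.PiA a - h0 (C.d0 a) := by
    intro a
    rw [L0def, Li0, hd0Pi, h0Pi]
  have Li1' : ∀ a, L1 (C.i1 a) = z1.PiA a - C.d0 (h0 a) - h1 (C.d1 a) := by
    intro a
    rw [L1def, Li1, h0Pi, hd1Pi, h1Pi]
  have Li2' : ∀ a, L2 (C.i2 a) = z2.PiA a - C.d1 (h1 a) := by
    intro a
    rw [L2def, Li2, h1Pi]
  have PL0 := z0.PiL
  have PL1 := z1.PiL
  have PL2 := z2.PiL
  refine ⟨{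
    G0 := z0.S.comp C.P0 + K0
    G1 := z1.S.comp C.P1 + K1
    G0A := z0.SA ∘ₗ C.P0A + h0
    G1A := z1.SA ∘ₗ C.P1A + h1
    iG0 := ?_
    iG1 := ?_
    H0 := H0
    H1 := H1
    H2 := H2
    L0 := L0
    L1 := L1
    L2 := L2
    iL0 := iL0
    iL1 := iL1
    iL2 := iL2
    fin0 := ?_
    fin1 := ?_
    fin2 := ?_
    idem0 := ?_
    idem1 := ?_
    idem2 := ?_
    dL0 := ?_
    dL1 := ?_
    Ld0 := ?_
    Ld1 := ?_
    eq0 := ?_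
    eq1 := ?_
    eq2 := ?_
    B0 := z0.S.comp C.P0
    B1 := z1.S.comp C.P1
    F0 := h0 ∘ₗ z1.L - z0.L ∘ₗ (C.P0 : X1 →ₗ[𝕜] X0)
    F1 := h1 ∘ₗ z2.L - z1.L ∘ₗ (C.P1 : X2 →ₗ[𝕜] X1)
    finF0 := ?_
    finF1 := ?_
    struc0 := ?_
    struc1 := ?_
    z0 := z0
    z1 := z1
    z2 := z2
    K0 := K0
    K1 := K1
    Gdef0 := fun _ => rfl
    Gdef1 := fun _ => rfl
    K0Pi := fun x => by rw [hK0, hK0, z1.LPi]
    K1Pi := fun x => by rw [hK1, hK1, z2.LPi]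
    H0Pi := fun x => by rw [hH0, hH0, z0.LPi]
    H1Pi := fun x => by rw [hH1, hH1, z1.LPi]
    H2Pi := fun x => by rw [hH2, hH2, z2.LPi] }⟩
  · intro a
    change C.i0 (z0.SA (C.P0A a) + h0 a) = z0.S (C.P0 (C.i1 a)) + K0 (C.i1 a)
    rw [map_add, z0.iS, C.iP0, hK0, Li1]
    change _ = _ + C.i0 (h0 (z1.PiA a))
    rw [h0Pi]
  · intro a
    change C.i1 (z1.SA (C.P1A a) + h1 a) = z1.S (C.P1 (C.i2 a)) + K1 (C.i2 a)
    rw [map_add, z1.iS, C.iP1, hK1, Li2]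
    change _ = _ + C.i1 (h1 (z2.PiA a))
    rw [h1Pi]
  · exact fin_range_of_comp _ z0.L _ hfinL0 hH0
  · exact fin_range_of_comp _ z1.L _ hfinL1 hH1
  · exact fin_range_of_comp _ z2.L _ hfinL2 hH2
  · intro x
    rw [← iL0, Li0', L0def]
    rw [map_sub, PL0, Pih0, map_sub, map_sub, d0h0d0, PL0]
    simp
  · intro x
    rw [← iL1, Li1', L1def]
    simp only [map_sub, PL1, Pih1, C.dd, h0h1d1, d1h1d1, ← hd0Pi, Pih0, d0h0d0]
    simp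
  · intro x
    rw [← iL2, Li2', L2def]
    simp only [map_sub, PL2, ← hd1Pi, Pih1]
    have := d1h1d1
    simp only [d1h1d1, Pih1]
    simp
  · intro x
    rw [L0def, map_sub, d0h0d0, PL0, sub_self]
  · intro x
    rw [L1def, map_sub, map_sub, C.dd, d1h1d1, PL1]; simp
  · intro a
    rw [Li1', C.dd, map_zero, sub_zero, d0h0d0, hd0Pi, sub_self]
  · intro a
    rw [Li2', d1h1d1, hd1Pi, sub_self]
  · intro a
    change z0.SA (C.P0A (C.d0 a)) + h0 (C.d0 a) = _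
    rw [e0, Li0']; abel
  · intro a
    change C.d0 (z0.SA (C.P0A a) + h0 a) + (z1.SA (C.P1A (C.d1 a)) + h1 (C.d1 a)) = _
    have := e1 a
    rw [Li1', map_add]
    have h : C.d0 (z0.SA (C.P0A a)) + C.d0 (h0 a) + (z1.SA (C.P1A (C.d1 a)) + h1 (C.d1 a)) =
      (C.d0 (z0.SA (C.P0A a)) + z1.SA (C.P1A (C.d1 a))) + C.d0 (h0 a) + h1 (C.d1 a) := by abel
    rw [h, this]; abel
  · intro a
    change C.d1 (z1.SA (C.P1A a) + h1 a) = _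
    rw [map_add, e2, Li2']; abel
  · exact fin_range_sub _ _ (fin_range_of_comp h0 z1.L _ hfinL1 fun _ => rfl)
      (fin_range_comp_right z0.L _ hfinL0)
  · exact fin_range_sub _ _ (fin_range_of_comp h1 z2.L _ hfinL2 fun _ => rfl)
      (fin_range_comp_right z1.L _ hfinL1)
  · intro x
    change z0.S (C.P0 x) + K0 x = C.P0 x + C.R0 (z0.S (C.P0 x)) +
      C.i0 (h0 (z1.L x) - z0.L (C.P0 x))
    rw [map_sub, z0.iL, hK0]
    change z0.S (C.P0 x) + C.i0 (h0 (z1.L x)) = C.P0 x + C.R0 (z0.S (C.P0 x)) +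
      (C.i0 (h0 (z1.L x)) - z0.Pi (C.P0 x))
    nth_rewrite 1 [z0.S_eq (C.P0 x)]
    abel
  · intro x
    change z1.S (C.P1 x) + K1 x = C.P1 x + C.R1 (z1.S (C.P1 x)) +
      C.i1 (h1 (z2.L x) - z1.L (C.P1 x))
    rw [map_sub, z1.iL, hK1]
    change z1.S (C.P1 x) + C.i1 (h1 (z2.L x)) = C.P1 x + C.R1 (z1.S (C.P1 x)) +
      (C.i1 (h1 (z2.L x)) - z1.Pi (C.P1 x))
    nth_rewrite 1 [z1.S_eq (C.P1 x)]
    abel

end Complex

end Vale.Agent.P267.H285
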