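import Vale.Agent.P267.H285.Coh

/-!
# Serre duality for complexes with parametrix (abstract)

helper285, package RRK-BAN.  `B_q` = smooth sections of the dual complex, embedded in the dual
Banach space of `X_q`; `D_q` = transpose of `d_q`, `Q_q` = transpose of `P_q`; the only analytic
hypothesis is `dreg`: a functional `λ` with `λ - λ ∘ R` smooth is smooth.
-/

namespace Vale.Agent.P267.H285

open Module Filter Topology

section Trans

variable {𝕜 : Type*} [RCLike 𝕜]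
variable {A : Type*} [AddCommGroup A] [Module 𝕜 A]
variable {X : Type*} [NormedAddCommGroup X] [NormedSpace 𝕜 X]
variable {B : Type*} [AddCommGroup B] [Module 𝕜 B]
variable {i : A →ₗ[𝕜] X} {R : X →L[𝕜] X} {RA : A →ₗ[𝕜] A}

theorem RegRiesz.dual_pow (j : B →ₗ[𝕜] (X →L[𝕜] 𝕜))
    (dreg : ∀ l : X →L[𝕜] 𝕜, l - l.comp R ∈ LinearMap.range j → l ∈ LinearMap.range j) (m : ℕ) :
    ∀ l : X →L[𝕜] 𝕜, (∀ x, l ((((1 - R : X →L[𝕜] X) : X →ₗ[𝕜] X) ^ m) x) = 0) →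
      l ∈ LinearMap.range j := by
  induction m with
  | zero =>
    intro l hl
    have : l = 0 := ContinuousLinearMap.ext fun x => by simpa using hl x
    rw [this]; exact Submodule.zero_mem _
  | succ m ih =>
    intro l hl
    apply dreg
    apply ih
    intro x
    have := hl x
    rw [pow_succ'] at this
    exact (map_sub l _ _).symm.trans this

theorem RegRiesz.dual_Pi (z : RegRiesz i R RA) (j : B →ₗ[𝕜] (X →L[𝕜] 𝕜))
    (dreg : ∀ l : X →L[𝕜] 𝕜, l - l.comp R ∈ LinearMap.range j → l ∈ LinearMap.range j)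
    (l : X →L[𝕜] 𝕜) : l.comp z.Pi ∈ LinearMap.range j := by
  apply RegRiesz.dual_pow j dreg z.n
  intro x
  have := z.alg.Pi_eq_zero_of_range x
  change l (z.Pi _) = 0
  have h2 : z.Pi ((((1 - R : X →L[𝕜] X) : X →ₗ[𝕜] X) ^ z.n) x) = 0 := this
  rw [h2, map_zero]

theorem RegRiesz.dual_S (z : RegRiesz i R RA) (j : B →ₗ[𝕜] (X →L[𝕜] 𝕜))
    (dreg : ∀ l : X →L[𝕜] 𝕜, l - l.comp R ∈ LinearMap.range j → l ∈ LinearMap.range j)
    (b : B) : (j b).comp z.S ∈ LinearMap.range j := by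
  apply dreg
  have h1 : (j b).comp z.S - ((j b).comp z.S).comp R = j b - (j b).comp z.Pi := by
    ext x
    have h2 : z.S (x - R x) = x - z.Pi x := z.alg.ST x
    change j b (z.S x) - j b (z.S (R x)) = j b x - j b (z.Pi x)
    rw [← map_sub, ← map_sub z.S, h2, map_sub]
  rw [h1]
  exact Submodule.sub_mem _ ⟨b, rfl⟩ (z.dual_Pi j dreg _)

/-- if `K = K ∘ Π` then `l ∘ K` is smooth -/
theorem RegRiesz.dual_K {Y : Type*} [NormedAddCommGroup Y] [NormedSpace 𝕜 Y]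
    (z : RegRiesz i R RA) (j : B →ₗ[𝕜] (X →L[𝕜] 𝕜))
    (dreg : ∀ l : X →L[𝕜] 𝕜, l - l.comp R ∈ LinearMap.range j → l ∈ LinearMap.range j)
    (K : X →L[𝕜] Y) (hK : ∀ x, K (z.Pi x) = K x) (l : Y →L[𝕜] 𝕜) :
    l.comp K ∈ LinearMap.range j := by
  have h1 : l.comp K = (l.comp K).comp z.Pi := by
    ext x
    change l (K x) = l (K (z.Pi x))
    rw [hK]
  rw [h1]
  exact z.dual_Pi j dreg _

end Trans

section Dual

variable {𝕜 : Type*} [RCLike 𝕜] {A0 A1 A2 X0 X1 X2 : Type*}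
    [AddCommGroup A0] [Module 𝕜 A0] [AddCommGroup A1] [Module 𝕜 A1]
    [AddCommGroup A2] [Module 𝕜 A2]
    [NormedAddCommGroup X0] [NormedSpace 𝕜 X0] [NormedAddCommGroup X1] [NormedSpace 𝕜 X1]
    [NormedAddCommGroup X2] [NormedSpace 𝕜 X2]
    {C : PComplex 𝕜 A0 A1 A2 X0 X1 X2}

/-- **Serre duality in top degree.**  `B` = smooth sections of the dual bundle in degree 2,
`j` = pairing with continuous sections.  Exact iff orthogonal to all `φ ∈ B` with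
`⟨φ, d1 a⟩ = 0`, and these `φ` form a space of dimension `dim H^2`. -/
theorem HodgeData.serre2 (h : HodgeData C) {B : Type*} [AddCommGroup B] [Module 𝕜 B]
    (j : B →ₗ[𝕜] (X2 →L[𝕜] 𝕜)) (nondeg : ∀ b, (∀ a, j b (C.i2 a) = 0) → b = 0)
    (dreg : ∀ l : X2 →L[𝕜] 𝕜, l - l.comp C.R2 ∈ LinearMap.range j → l ∈ LinearMap.range j)
    (Z : Submodule 𝕜 B) (hZ : ∀ b, b ∈ Z ↔ ∀ a, j b (C.i2 (C.d1 a)) = 0) :
    FiniteDimensional 𝕜 Z ∧ finrank 𝕜 Z = finrank 𝕜 C.Coh2 ∧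
      (∀ a : A2, (∃ b, C.d1 b = a) ↔ ∀ b ∈ Z, j b (C.i2 a) = 0) := by
  obtain ⟨e, lam, h1, h2, h3, h4⟩ := h.exists_bases2
  -- the dual basis is smooth
  have hlam : ∀ k, ∃ b, j b = lam k := by
    intro k
    have : lam k = (lam k).comp h.H2 := ContinuousLinearMap.ext fun x => (h4 k x).symm
    rw [this]
    exact h.z2.dual_K j dreg h.H2 h.H2Pi (lam k)
  choose ε hε using hlam
  have hεZ : ∀ k, ε k ∈ Z := by
    intro k
    rw [hZ]
    intro a
    rw [hε]; exact h3 k a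
  -- every element of Z is a combination of the ε
  have hspan : ∀ b ∈ Z, b = ∑ k, j b (C.i2 (e k)) • ε k := by
    intro b hb
    rw [← sub_eq_zero]
    apply nondeg
    intro a
    have h5 : a = C.d1 (h.G1A a) + h.L2 (C.i2 a) := by rw [h.eq2]; abel
    have h6 : j b (C.i2 a) = ∑ k, lam k (C.i2 a) * j b (C.i2 (e k)) := by
      nth_rewrite 1 [h5]
      rw [map_add, map_add, (hZ b).1 hb, zero_add, h1, map_sum, map_sum]
      refine Finset.sum_congr rfl fun k _ => ?_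
      rw [map_smul, map_smul, smul_eq_mul]
    rw [map_sub, sub_apply, h6, map_sum, sum_apply,
      sub_eq_zero]
    refine Finset.sum_congr rfl fun k _ => ?_
    rw [map_smul, smul_apply, hε, smul_eq_mul, mul_comm]
  let εZ : Fin (finrank 𝕜 C.Coh2) → Z := fun k => ⟨ε k, hεZ k⟩
  have hli : LinearIndependent 𝕜 εZ := by
    rw [Fintype.linearIndependent_iff]
    intro g hg l
    have h5 : ∑ k, g k • ε k = 0 := by
      have := congrArg (fun z : Z => (z : B)) hg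
      simpa [εZ] using this
    have h6 : j (∑ k, g k • ε k) (C.i2 (e l)) = g l := by
      rw [map_sum, sum_apply]
      simp only [map_smul, smul_apply, hε, h2, smul_eq_mul]
      simp
    rw [← h6, h5]; simp
  have hsp : ⊤ ≤ Submodule.span 𝕜 (Set.range εZ) := by
    rintro ⟨b, hb⟩ -
    have h5 : (⟨b, hb⟩ : Z) = ∑ k, j b (C.i2 (e k)) • εZ k := by
      apply Subtype.ext
      simpa [εZ] using hspan b hb
    rw [h5]
    exact Submodule.sum_mem _ fun k _ => Submodule.smul_mem _ _ (Submodule.subset_span ⟨k, rfl⟩)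
  let bs := Module.Basis.mk hli hsp
  refine ⟨bs.finiteDimensional_of_finite, ?_, ?_⟩
  · rw [Module.finrank_eq_card_basis bs, Fintype.card_fin]
  · intro a
    constructor
    · rintro ⟨b, rfl⟩ c hc
      exact (hZ c).1 hc b
    · intro ha
      rw [h.exact2, h1]
      refine Finset.sum_eq_zero fun k _ => ?_
      rw [← hε, ha _ (hεZ k), zero_smul]

/-- The transposed complex `B2 → B1 → B0`. -/
structure DualSys (C : PComplex 𝕜 A0 A1 A2 X0 X1 X2) (B0 B1 B2 : Type*)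
    [AddCommGroup B0] [Module 𝕜 B0] [AddCommGroup B1] [Module 𝕜 B1]
    [AddCommGroup B2] [Module 𝕜 B2] where
  j0 : B0 →ₗ[𝕜] (X0 →L[𝕜] 𝕜)
  j1 : B1 →ₗ[𝕜] (X1 →L[𝕜] 𝕜)
  j2 : B2 →ₗ[𝕜] (X2 →L[𝕜] 𝕜)
  D0 : B1 →ₗ[𝕜] B0
  D1 : B2 →ₗ[𝕜] B1
  tr0 : ∀ b a, j0 (D0 b) (C.i0 a) = j1 b (C.i1 (C.d0 a))
  tr1 : ∀ b a, j1 (D1 b) (C.i1 a) = j2 b (C.i2 (C.d1 a))
  Q0 : B0 →ₗ[𝕜] B1
  Q1 : B1 →ₗ[𝕜] B2
  jQ0 : ∀ b x, j1 (Q0 b) x = j0 b (C.P0 x)
  jQ1 : ∀ b x, j2 (Q1 b) x = j1 b (C.P1 x)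
  nondeg0 : ∀ b, (∀ a, j0 b (C.i0 a) = 0) → b = 0
  nondeg1 : ∀ b, (∀ a, j1 b (C.i1 a) = 0) → b = 0
  nondeg2 : ∀ b, (∀ a, j2 b (C.i2 a) = 0) → b = 0
  dreg0 : ∀ l : X0 →L[𝕜] 𝕜, l - l.comp C.R0 ∈ LinearMap.range j0 → l ∈ LinearMap.range j0
  dreg1 : ∀ l : X1 →L[𝕜] 𝕜, l - l.comp C.R1 ∈ LinearMap.range j1 → l ∈ LinearMap.range j1
  dreg2 : ∀ l : X2 →L[𝕜] 𝕜, l - l.comp C.R2 ∈ LinearMap.range j2 → l ∈ LinearMap.range j2

namespace DualSys

variable {B0 B1 B2 : Type*} [AddCommGroup B0] [Module 𝕜 B0] [AddCommGroup B1] [Module 𝕜 B1]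
    [AddCommGroup B2] [Module 𝕜 B2] (E : DualSys C B0 B1 B2)

theorem inj0 : Function.Injective E.j0 := by
  rw [injective_iff_map_eq_zero]
  intro b hb
  exact E.nondeg0 b fun a => by rw [hb]; rfl

theorem inj1 : Function.Injective E.j1 := by
  rw [injective_iff_map_eq_zero]
  intro b hb
  exact E.nondeg1 b fun a => by rw [hb]; rfl

theorem inj2 : Function.Injective E.j2 := by
  rw [injective_iff_map_eq_zero]
  intro b hb
  exact E.nondeg2 b fun a => by rw [hb]; rfl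

/-- `H^1` of the dual complex -/
abbrev Coh1 := ↥(LinearMap.ker E.D0) ⧸ (LinearMap.range E.D1).comap (LinearMap.ker E.D0).subtype

/-- `H^2` of the dual complex -/
abbrev Coh2 := B0 ⧸ LinearMap.range E.D0

variable (h : HodgeData C)

theorem exists_G0 (b : B0) : (E.j0 b).comp h.G0 ∈ LinearMap.range E.j1 := by
  have h1 : (E.j0 b).comp h.G0 = ((E.j0 b).comp h.z0.S).comp C.P0 + (E.j0 b).comp h.K0 := by
    ext x
    change E.j0 b (h.G0 x) = E.j0 b (h.z0.S (C.P0 x)) + E.j0 b (h.K0 x)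
    rw [h.Gdef0, map_add]
  rw [h1]
  obtain ⟨c, hc⟩ := h.z0.dual_S E.j0 E.dreg0 b
  refine Submodule.add_mem _ ⟨E.Q0 c, ?_⟩ (h.z1.dual_K E.j1 E.dreg1 h.K0 h.K0Pi _)
  ext x
  rw [E.jQ0, hc]; rfl

theorem exists_G1 (b : B1) : (E.j1 b).comp h.G1 ∈ LinearMap.range E.j2 := by
  have h1 : (E.j1 b).comp h.G1 = ((E.j1 b).comp h.z1.S).comp C.P1 + (E.j1 b).comp h.K1 := by
    ext x
    change E.j1 b (h.G1 x) = E.j1 b (h.z1.S (C.P1 x)) + E.j1 b (h.K1 x)
    rw [h.Gdef1, map_add]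
  rw [h1]
  obtain ⟨c, hc⟩ := h.z1.dual_S E.j1 E.dreg1 b
  refine Submodule.add_mem _ ⟨E.Q1 c, ?_⟩ (h.z2.dual_K E.j2 E.dreg2 h.K1 h.K1Pi _)
  ext x
  rw [E.jQ1, hc]; rfl

include h in
/-- **Serre duality in the middle degree.** -/
theorem serre1 : FiniteDimensional 𝕜 E.Coh1 ∧ finrank 𝕜 E.Coh1 = finrank 𝕜 C.Coh1 ∧
    (∀ a, C.d1 a = 0 → ((∃ c, C.d0 c = a) ↔ ∀ b, E.D0 b = 0 → E.j1 b (C.i1 a) = 0)) ∧
    (∀ b, E.D0 b = 0 → ((∃ c, E.D1 c = b) ↔ ∀ a, C.d1 a = 0 → E.j1 b (C.i1 a) = 0)) := by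
  obtain ⟨e, lam, h1, h2, h3, h4, h5⟩ := h.exists_bases1
  have hlam : ∀ k, ∃ b, E.j1 b = lam k := by
    intro k
    have : lam k = (lam k).comp h.H1 := ContinuousLinearMap.ext fun x => (h5 k x).symm
    rw [this]
    exact h.z1.dual_K E.j1 E.dreg1 h.H1 h.H1Pi (lam k)
  choose ε hε using hlam
  have hε0 : ∀ k, E.D0 (ε k) = 0 := by
    intro k
    apply E.nondeg0
    intro a
    rw [E.tr0, hε, h4]
  have hdec : ∀ b, E.D0 b = 0 → ∃ c, b = E.D1 c + ∑ k, E.j1 b (C.i1 (e k)) • ε k := by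
    intro b hb
    obtain ⟨c, hc⟩ := E.exists_G1 h b
    refine ⟨c, ?_⟩
    rw [← sub_eq_zero]
    apply E.nondeg1
    intro a
    have e1 : E.j1 (E.D1 c) (C.i1 a) = E.j1 b (C.i1 (h.G1A (C.d1 a))) := by
      rw [E.tr1, hc, h.iG1]; rfl
    have e2 : a = C.d0 (h.G0A a) + h.G1A (C.d1 a) + h.L1 (C.i1 a) := by
      have := h.eq1 a
      rw [this]; abel
    have e3 : E.j1 b (C.i1 (C.d0 (h.G0A a))) = 0 := by
      rw [← E.tr0, hb]; simp
    have e4 : E.j1 b (C.i1 (h.L1 (C.i1 a))) = ∑ k, lam k (C.i1 a) * E.j1 b (C.i1 (e k)) := by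
      rw [h1, map_sum, map_sum]
      refine Finset.sum_congr rfl fun k _ => ?_
      rw [map_smul, map_smul, smul_eq_mul]
    have e5 : E.j1 b (C.i1 a) = E.j1 b (C.i1 (h.G1A (C.d1 a))) +
        ∑ k, lam k (C.i1 a) * E.j1 b (C.i1 (e k)) := by
      nth_rewrite 1 [e2]
      rw [map_add, map_add, map_add, map_add, e3, e4, zero_add]
    have e6 : E.j1 (∑ k, E.j1 b (C.i1 (e k)) • ε k) (C.i1 a) =
        ∑ k, lam k (C.i1 a) * E.j1 b (C.i1 (e k)) := by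
      rw [map_sum, sum_apply]
      refine Finset.sum_congr rfl fun k _ => ?_
      rw [map_smul, smul_apply, hε, smul_eq_mul, mul_comm]
    rw [map_sub, sub_apply, map_add, add_apply, e1, e5, e6, sub_self]
  have hpair : ∀ c k, E.j1 (E.D1 c) (C.i1 (e k)) = 0 := by
    intro c k
    rw [E.tr1, h3]; simp
  have hexactB : ∀ b, E.D0 b = 0 → (∀ k, E.j1 b (C.i1 (e k)) = 0) → ∃ c, E.D1 c = b := by
    intro b hb hk
    obtain ⟨c, hc⟩ := hdec b hb
    refine ⟨c, ?_⟩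
    rw [hc]
    simp only [hk, zero_smul, Finset.sum_const_zero, add_zero]
  let f : LinearMap.ker E.D0 →ₗ[𝕜] (Fin (finrank 𝕜 C.Coh1) → 𝕜) :=
    LinearMap.pi fun k => (LinearMap.applyₗ (C.i1 (e k)) ∘ₗ
      (ContinuousLinearMap.coeLM 𝕜 : (X1 →L[𝕜] 𝕜) →ₗ[𝕜] (X1 →ₗ[𝕜] 𝕜))) ∘ₗ E.j1 ∘ₗ
        (LinearMap.ker E.D0).subtype
  have hf : ∀ b k, f b k = E.j1 b (C.i1 (e k)) := fun b k => rfl
  have hker : LinearMap.ker f =
      (LinearMap.range E.D1).comap (LinearMap.ker E.D0).subtype := by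
    ext b
    constructor
    · intro hb
      have hb' : ∀ k, E.j1 b (C.i1 (e k)) = 0 := fun k => by
        rw [← hf, LinearMap.mem_ker.1 hb]; rfl
      exact hexactB b b.2 hb'
    · rintro ⟨c, hc⟩
      rw [LinearMap.mem_ker]
      funext k
      rw [hf]
      have : (b : B1) = E.D1 c := hc.symm
      rw [this, hpair]; rfl
  have hsurj : Function.Surjective f := by
    intro g
    refine ⟨⟨∑ k, g k • ε k, ?_⟩, ?_⟩
    · rw [LinearMap.mem_ker, map_sum]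
      refine Finset.sum_eq_zero fun k _ => ?_
      rw [map_smul, hε0, smul_zero]
    · funext l
      rw [hf]
      change E.j1 (∑ k, g k • ε k) (C.i1 (e l)) = g l
      rw [map_sum, sum_apply]
      simp only [map_smul, smul_apply, hε, h2, smul_eq_mul]
      simp
  let F : E.Coh1 ≃ₗ[𝕜] (Fin (finrank 𝕜 C.Coh1) → 𝕜) :=
    (Submodule.quotEquivOfEq _ _ hker.symm).trans (f.quotKerEquivOfSurjective hsurj)
  refine ⟨F.symm.finiteDimensional, ?_, ?_, ?_⟩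
  · rw [F.finrank_eq]; simp
  · intro a ha
    constructor
    · rintro ⟨c, rfl⟩ b hb
      rw [← E.tr0, hb]; simp
    · intro hb
      rw [h.exact1 ha, h1]
      refine Finset.sum_eq_zero fun k _ => ?_
      rw [← hε, hb _ (hε0 k), zero_smul]
  · intro b hb
    constructor
    · rintro ⟨c, rfl⟩ a ha
      rw [E.tr1, ha]; simp
    · intro ha
      exact hexactB b hb fun k => ha _ (h3 k)

include h in
/-- **Serre duality**: `H^2` of the dual complex against `H^0`. -/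
theorem serre0 : FiniteDimensional 𝕜 E.Coh2 ∧
    finrank 𝕜 E.Coh2 = finrank 𝕜 (LinearMap.ker C.d0) ∧
    (∀ b, (∃ c, E.D0 c = b) ↔ ∀ a, C.d0 a = 0 → E.j0 b (C.i0 a) = 0) := by
  obtain ⟨e, lam, h1, h2, h3, h5⟩ := h.exists_bases0
  have hlam : ∀ k, ∃ b, E.j0 b = lam k := by
    intro k
    have : lam k = (lam k).comp h.H0 := ContinuousLinearMap.ext fun x => (h5 k x).symm
    rw [this]
    exact h.z0.dual_K E.j0 E.dreg0 h.H0 h.H0Pi (lam k)
  choose ε hε using hlam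
  have hdec : ∀ b, ∃ c, b = E.D0 c + ∑ k, E.j0 b (C.i0 (e k)) • ε k := by
    intro b
    obtain ⟨c, hc⟩ := E.exists_G0 h b
    refine ⟨c, ?_⟩
    rw [← sub_eq_zero]
    apply E.nondeg0
    intro a
    have e1 : E.j0 (E.D0 c) (C.i0 a) = E.j0 b (C.i0 (h.G0A (C.d0 a))) := by
      rw [E.tr0, hc, h.iG0]; rfl
    have e2 : a = h.G0A (C.d0 a) + h.L0 (C.i0 a) := by
      rw [h.eq0 a]; abel
    have e4 : E.j0 b (C.i0 (h.L0 (C.i0 a))) = ∑ k, lam k (C.i0 a) * E.j0 b (C.i0 (e k)) := by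
      rw [h1, map_sum, map_sum]
      refine Finset.sum_congr rfl fun k _ => ?_
      rw [map_smul, map_smul, smul_eq_mul]
    have e5 : E.j0 b (C.i0 a) = E.j0 b (C.i0 (h.G0A (C.d0 a))) +
        ∑ k, lam k (C.i0 a) * E.j0 b (C.i0 (e k)) := by
      nth_rewrite 1 [e2]
      rw [map_add, map_add, e4]
    have e6 : E.j0 (∑ k, E.j0 b (C.i0 (e k)) • ε k) (C.i0 a) =
        ∑ k, lam k (C.i0 a) * E.j0 b (C.i0 (e k)) := by
      rw [map_sum, sum_apply]
      refine Finset.sum_congr rfl fun k _ => ?_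
      rw [map_smul, smul_apply, hε, smul_eq_mul, mul_comm]
    rw [map_sub, sub_apply, map_add, add_apply, e1, e5, e6, sub_self]
  have hpair : ∀ c k, E.j0 (E.D0 c) (C.i0 (e k)) = 0 := by
    intro c k
    rw [E.tr0, h3]; simp
  have hexactB : ∀ b, (∀ k, E.j0 b (C.i0 (e k)) = 0) → ∃ c, E.D0 c = b := by
    intro b hk
    obtain ⟨c, hc⟩ := hdec b
    refine ⟨c, ?_⟩
    rw [hc]
    simp only [hk, zero_smul, Finset.sum_const_zero, add_zero]
  let f : B0 →ₗ[𝕜] (Fin (finrank 𝕜 (LinearMap.ker C.d0)) → 𝕜) :=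
    LinearMap.pi fun k => (LinearMap.applyₗ (C.i0 (e k)) ∘ₗ
      (ContinuousLinearMap.coeLM 𝕜 : (X0 →L[𝕜] 𝕜) →ₗ[𝕜] (X0 →ₗ[𝕜] 𝕜))) ∘ₗ E.j0
  have hf : ∀ b k, f b k = E.j0 b (C.i0 (e k)) := fun b k => rfl
  have hker : LinearMap.ker f = LinearMap.range E.D0 := by
    ext b
    constructor
    · intro hb
      have hb' : ∀ k, E.j0 b (C.i0 (e k)) = 0 := fun k => by
        rw [← hf, LinearMap.mem_ker.1 hb]; rfl
      exact hexactB b hb'
    · rintro ⟨c, hc⟩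
      rw [LinearMap.mem_ker]
      funext k
      rw [hf, ← hc, hpair]; rfl
  have hsurj : Function.Surjective f := by
    intro g
    refine ⟨∑ k, g k • ε k, ?_⟩
    funext l
    rw [hf, map_sum, sum_apply]
    simp only [map_smul, smul_apply, hε, h2, smul_eq_mul]
    simp
  let F : E.Coh2 ≃ₗ[𝕜] (Fin (finrank 𝕜 (LinearMap.ker C.d0)) → 𝕜) :=
    (Submodule.quotEquivOfEq _ _ hker.symm).trans (f.quotKerEquivOfSurjective hsurj)
  refine ⟨F.symm.finiteDimensional, ?_, ?_⟩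
  · rw [F.finrank_eq]; simp
  · intro b
    constructor
    · rintro ⟨c, rfl⟩ a ha
      rw [E.tr0, ha]; simp
    · intro ha
      exact hexactB b fun k => ha _ (h3 k)

include h in
/-- **Serre duality**: `H^0` of the dual complex against `H^2`. -/
theorem serre2' : FiniteDimensional 𝕜 (LinearMap.ker E.D1) ∧
    finrank 𝕜 (LinearMap.ker E.D1) = finrank 𝕜 C.Coh2 ∧
    (∀ a, (∃ c, C.d1 c = a) ↔ ∀ b, E.D1 b = 0 → E.j2 b (C.i2 a) = 0) := by
  have hZ : ∀ b, b ∈ LinearMap.ker E.D1 ↔ ∀ a, E.j2 b (C.i2 (C.d1 a)) = 0 := by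
    intro b
    rw [LinearMap.mem_ker]
    constructor
    · intro hb a
      rw [← E.tr1, hb]; simp
    · intro hb
      apply E.nondeg1
      intro a
      rw [E.tr1]; exact hb a
  exact h.serre2 E.j2 E.nondeg2 E.dreg2 (LinearMap.ker E.D1) hZ

end DualSys

end Dual

end Vale.Agent.P267.H285
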