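import Mathlib

/-!
# Riesz theory of `1 - K`, `K` compact

helper285, package RRK-BAN.  For a compact operator `K` on a Banach space, `T = 1 - K`
there are `n`, `Π`, `S` with `Π` a finite rank projection onto `ker T^n`,
`S T = T S = 1 - Π`, `S Π = Π S = 0`.  The algebraic part (`AlgRiesz`) is separated, so that
every linear map intertwining two such `T`s intertwines the `Π`s and the `S`s.
-/

namespace Vale.Agent.P267.H285

open Module Filter Topology

/-! ### The algebraic part -/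

section Alg

variable {k : Type*} [Field k]
variable {M : Type*} [AddCommGroup M] [Module k M]
variable {M' : Type*} [AddCommGroup M'] [Module k M']

/-- `T` is, up to the projection `Π` onto its generalised kernel, invertible with inverse `S`. -/
structure AlgRiesz (T Pi S : M →ₗ[k] M) (n : ℕ) : Prop where
  nil : ∀ x, (T ^ n) (Pi x) = 0
  idem : ∀ x, Pi (Pi x) = Pi x
  TS : ∀ x, T (S x) = x - Pi x
  ST : ∀ x, S (T x) = x - Pi x
  PiS : ∀ x, Pi (S x) = 0
  SPi : ∀ x, S (Pi x) = 0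

namespace AlgRiesz

variable {T Pi S : M →ₗ[k] M} {n : ℕ} {T' Pi' S' : M' →ₗ[k] M'} {n' : ℕ}

theorem TPi (h : AlgRiesz T Pi S n) (x : M) : T (Pi x) = Pi (T x) := by
  have h1 : T (S (T x)) = T x - T (Pi x) := by rw [h.ST, map_sub]
  have h2 : T (S (T x)) = T x - Pi (T x) := h.TS (T x)
  have := h1.symm.trans h2
  exact sub_right_injective this

theorem pow_TS (h : AlgRiesz T Pi S n) (m : ℕ) (x : M) :
    (T ^ (m + 1)) ((S ^ (m + 1)) x) = x - Pi x := by
  induction m generalizing x with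
  | zero => simpa using h.TS x
  | succ m ih =>
    have : (T ^ (m + 1 + 1)) ((S ^ (m + 1 + 1)) x) = (T ^ (m + 1)) (T (S ((S ^ (m + 1)) x))) := by
      rw [pow_succ (n := m + 1), pow_succ' (n := m + 1)]; rfl
    rw [this, h.TS]
    have h2 : Pi ((S ^ (m + 1)) x) = 0 := by
      rw [pow_succ']; exact h.PiS _
    rw [h2, sub_zero, ih]

theorem pow_ST (h : AlgRiesz T Pi S n) (m : ℕ) (x : M) :
    (S ^ (m + 1)) ((T ^ (m + 1)) x) = x - Pi x := by
  induction m generalizing x with
  | zero => simpa using h.ST x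
  | succ m ih =>
    have : (S ^ (m + 1 + 1)) ((T ^ (m + 1 + 1)) x) = S ((S ^ (m + 1)) ((T ^ (m + 1)) (T x))) := by
      rw [pow_succ' (n := m + 1), pow_succ (n := m + 1)]; rfl
    rw [this, ih, map_sub, h.ST, h.SPi, sub_zero]

theorem pow_intertwine {L : M →ₗ[k] M'} (hL : ∀ x, L (T x) = T' (L x)) (m : ℕ) (x : M) :
    L ((T ^ m) x) = (T' ^ m) (L x) := by
  induction m generalizing x with
  | zero => simp
  | succ m ih =>
    rw [pow_succ', pow_succ']
    change L (T ((T ^ m) x)) = T' ((T' ^ m) (L x))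
    rw [hL, ih]

theorem zero_of_pow (h : AlgRiesz T Pi S n) {m : ℕ} {x : M} (hx : (T ^ m) x = 0) :
    Pi x = x := by
  have hx' : (T ^ (m + 1)) x = 0 := by
    rw [pow_succ']; change T ((T ^ m) x) = 0; rw [hx, map_zero]
  have := h.pow_ST m x
  rw [hx', map_zero] at this
  exact (sub_eq_zero.1 this.symm).symm

theorem Pi_eq_zero_of_range (h : AlgRiesz T Pi S n) (x : M) : Pi ((T ^ n) x) = 0 := by
  have h1 : Pi ((T ^ n) x) = (T ^ n) (Pi x) :=
    pow_intertwine (L := Pi) (T := T) (T' := T) (fun x => (h.TPi x).symm) n x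
  rw [h1, h.nil]

/-- Every linear map intertwining `T` and `T'` intertwines `Pi` and `Pi'`. -/
theorem intertwine_Pi (h : AlgRiesz T Pi S n) (h' : AlgRiesz T' Pi' S' n')
    {L : M →ₗ[k] M'} (hL : ∀ x, L (T x) = T' (L x)) (x : M) : L (Pi x) = Pi' (L x) := by
  have h1 : Pi' (L (Pi x)) = L (Pi x) := by
    refine h'.zero_of_pow (m := n) ?_
    rw [← pow_intertwine hL, h.nil, map_zero]
  have h2 : Pi' (L (x - Pi x)) = 0 := by
    have h3 : x - Pi x = (T ^ (n' + 1)) ((S ^ (n' + 1)) x) := (h.pow_TS n' x).symm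
    rw [h3, pow_intertwine hL, pow_succ]
    exact h'.Pi_eq_zero_of_range _
  rw [map_sub, map_sub, sub_eq_zero, h1] at h2
  exact h2.symm

/-- Every linear map intertwining `T` and `T'` intertwines `S` and `S'`. -/
theorem intertwine_S (h : AlgRiesz T Pi S n) (h' : AlgRiesz T' Pi' S' n')
    {L : M →ₗ[k] M'} (hL : ∀ x, L (T x) = T' (L x)) (x : M) : L (S x) = S' (L x) := by
  have h1 : L (S x) = Pi' (L (S x)) + S' (T' (L (S x))) := by
    rw [h'.ST]; abel
  rw [h1, ← h.intertwine_Pi h' hL, h.PiS, map_zero, zero_add, ← hL, h.TS, map_sub, map_sub,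
    h.intertwine_Pi h' hL, h'.SPi, sub_zero]

end AlgRiesz

end Alg

/-! ### Compact operators -/

section Compact

variable {𝕜 : Type*} [RCLike 𝕜]
variable {X : Type*} [NormedAddCommGroup X] [NormedSpace 𝕜 X]

theorem exists_compact_pow (K : X →L[𝕜] X) (hK : IsCompactOperator K) (n : ℕ) :
    ∃ L : X →L[𝕜] X, IsCompactOperator L ∧ (1 - K) ^ n = 1 - L := by
  induction n with
  | zero => exact ⟨0, isCompactOperator_zero, by simp⟩
  | succ n ih =>
    obtain ⟨L, hL, h⟩ := ih
    refine ⟨L + K - L * K, ?_, ?_⟩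
    · have h1 : IsCompactOperator (L * K : X →L[𝕜] X) := hL.comp_clm K
      exact (hL.add hK).sub h1
    · rw [pow_succ, h]; noncomm_ring

theorem finiteDimensional_ker (K : X →L[𝕜] X) (hK : IsCompactOperator K) :
    FiniteDimensional 𝕜 (LinearMap.ker ((1 - K : X →L[𝕜] X) : X →ₗ[𝕜] X)) := by
  set N := LinearMap.ker ((1 - K : X →L[𝕜] X) : X →ₗ[𝕜] X) with hN
  have hmem : ∀ x ∈ N, K x = x := by
    intro x hx
    have : x - K x = 0 := by simpa [hN] using hx
    exact (sub_eq_zero.1 this).symm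
  have hcl : IsClosed (N : Set X) := by
    have : (N : Set X) = (1 - K : X →L[𝕜] X) ⁻¹' {0} := by
      ext x; simp [hN]
    rw [this]
    exact isClosed_singleton.preimage (1 - K : X →L[𝕜] X).continuous
  have hc : IsCompactOperator (id : N → N) := by
    have h1 : IsCompactOperator (K.comp N.subtypeL) := hK.comp_clm N.subtypeL
    have h2 : ∀ x : N, K.comp N.subtypeL x ∈ N := by
      intro x; simp [hmem x x.2]
    have h3 := h1.codRestrict (V := N) h2 hcl
    have h4 : (id : N → N) = Set.codRestrict (K.comp N.subtypeL) N h2 := by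
      funext x
      apply Subtype.ext
      simp [Set.codRestrict, hmem x x.2]
    rw [h4]; exact h3
  exact FiniteDimensional.of_isCompactOperator_id hc

theorem exists_ascent (K : X →L[𝕜] X) (hK : IsCompactOperator K) :
    ∃ n : ℕ, ∀ x, ((1 - K) ^ (n + 1)) x = 0 → ((1 - K) ^ n) x = 0 := by
  by_contra! hcon
  set T : X →L[𝕜] X := 1 - K with hT
  obtain ⟨c, hc⟩ := NormedField.exists_one_lt_norm 𝕜
  -- monotonicity of kernels
  have hmono : ∀ m n : ℕ, m ≤ n → ∀ x, (T ^ m) x = 0 → (T ^ n) x = 0 := by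
    intro m n hmn x hx
    obtain ⟨j, rfl⟩ := Nat.exists_eq_add_of_le' hmn
    rw [pow_add]
    change (T ^ j) ((T ^ m) x) = 0
    rw [hx, map_zero]
  let V : ℕ → Submodule 𝕜 X := fun n => LinearMap.ker ((T ^ n : X →L[𝕜] X) : X →ₗ[𝕜] X)
  have hV : ∀ n x, x ∈ V n ↔ (T ^ n) x = 0 := fun n x => Iff.rfl
  have hVcl : ∀ n, IsClosed (V n : Set X) := by
    intro n
    have : (V n : Set X) = (T ^ n : X →L[𝕜] X) ⁻¹' {0} := by
      ext x; exact hV n x
    rw [this]
    exact isClosed_singleton.preimage (T ^ n : X →L[𝕜] X).continuous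
  have hx : ∀ n, ∃ x : X, (T ^ (n + 1)) x = 0 ∧ ‖x‖ ≤ ‖c‖ + 1 ∧
      ∀ y, (T ^ n) y = 0 → 1 ≤ ‖x - y‖ := by
    intro n
    obtain ⟨x0, hx0, hx0'⟩ := hcon n
    have h₁ : IsClosed ((V n).comap (V (n + 1)).subtype : Set (V (n + 1))) := by
      simpa using! (hVcl n).preimage_val
    have h₂ : ∃ x : V (n + 1), x ∉ (V n).comap (V (n + 1)).subtype :=
      ⟨⟨x0, (hV _ _).2 hx0⟩, fun h => hx0' ((hV _ _).1 h)⟩
    obtain ⟨⟨x, hx⟩, hxn, hxy⟩ := riesz_lemma_of_norm_lt hc (lt_add_one ‖c‖) h₁ h₂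
    refine ⟨x, (hV _ _).1 hx, by simpa using hxn, fun y hy => ?_⟩
    have hy1 : y ∈ V (n + 1) := (hV _ _).2 (hmono n (n + 1) (Nat.le_succ n) y hy)
    have := hxy ⟨y, hy1⟩ ((hV _ _).2 hy)
    simpa using this
  choose f hf1 hf2 hf3 using hx
  have hp : ∀ m n : ℕ, m < n → 1 ≤ ‖K (f n) - K (f m)‖ := by
    intro m n hmn
    have hK' : ∀ x, K x = x - T x := by intro x; simp [hT]
    have h1 : K (f n) - K (f m) = f n - (T (f n) + f m - T (f m)) := by
      rw [hK', hK']; abel
    rw [h1]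
    refine hf3 n _ ?_
    have e1 : (T ^ n) (T (f n)) = 0 := by
      have := hf1 n; rwa [pow_succ] at this
    have e2 : (T ^ n) (f m) = 0 := hmono (m + 1) n hmn _ (hf1 m)
    have e3 : (T ^ n) (T (f m)) = 0 := by
      have : (T ^ (n + 1)) (f m) = 0 := hmono (m + 1) (n + 1) (by omega) _ (hf1 m)
      rwa [pow_succ] at this
    rw [map_sub, map_add, e1, e2, e3]; simp
  obtain ⟨C, hC, hC'⟩ := hK.image_closedBall_subset_compact (‖c‖ + 1)
  obtain ⟨y, hyC, ψ, hψ, hψy⟩ := hC.tendsto_subseq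
    (x := fun n => K (f n)) (fun n => hC' ⟨f n, by simpa using hf2 n, rfl⟩)
  replace hψy := hψy.cauchySeq
  rw [Metric.cauchySeq_iff'] at hψy
  obtain ⟨N, hN⟩ := hψy 1 one_pos
  have : ‖K (f (ψ (N + 1))) - K (f (ψ N))‖ < 1 := by
    simpa [dist_eq_norm_sub] using hN (N + 1) (by omega)
  exact this.not_ge (hp _ _ (hψ (Nat.lt_succ_self N)))

variable [CompleteSpace X]

/-- If `1 - K` is injective (`K` compact), it is invertible. -/
theorem exists_inverse_of_injective (K : X →L[𝕜] X) (hK : IsCompactOperator K)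
    (hinj : ∀ x, (1 - K) x = 0 → x = 0) :
    ∃ S : X →L[𝕜] X, (∀ x, S ((1 - K) x) = x) ∧ ∀ x, (1 - K) (S x) = x := by
  rcases hK.hasEigenvalue_or_mem_resolventSet (μ := (1 : 𝕜)) one_ne_zero with h | h
  · exfalso
    obtain ⟨v, hv⟩ := h.exists_hasEigenvector
    apply hv.2
    apply hinj
    have := hv.apply_eq_smul
    simp only [one_smul, ContinuousLinearMap.coe_coe] at this
    simp [this]
  · rw [spectrum.mem_resolventSet_iff] at h
    obtain ⟨u, hu⟩ := h
    have hu' : (u : X →L[𝕜] X) = 1 - K := by rw [hu]; simp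
    refine ⟨(u⁻¹ : (X →L[𝕜] X)ˣ), fun x => ?_, fun x => ?_⟩
    · have : ((u⁻¹ : (X →L[𝕜] X)ˣ) : X →L[𝕜] X) * (u : X →L[𝕜] X) = 1 := by simp
      rw [hu'] at this
      exact congrArg (fun L : X →L[𝕜] X => L x) this
    · have : (u : X →L[𝕜] X) * ((u⁻¹ : (X →L[𝕜] X)ˣ) : X →L[𝕜] X) = 1 := by simp
      rw [hu'] at this
      exact congrArg (fun L : X →L[𝕜] X => L x) this

/-- **Riesz decomposition** for `1 - K`, `K` compact. -/
theorem exists_riesz (K : X →L[𝕜] X) (hK : IsCompactOperator K) :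
    ∃ (n : ℕ) (Pi S : X →L[𝕜] X),
      AlgRiesz ((1 - K : X →L[𝕜] X) : X →ₗ[𝕜] X) (Pi : X →ₗ[𝕜] X) (S : X →ₗ[𝕜] X) n ∧
      FiniteDimensional 𝕜 (LinearMap.range (Pi : X →ₗ[𝕜] X)) := by
  obtain ⟨n, hn⟩ := exists_ascent K hK
  set T : X →L[𝕜] X := 1 - K with hT
  -- the kernel of `T^m`, `m ≥ n`
  have hasc : ∀ j x, (T ^ (n + j)) x = 0 → (T ^ n) x = 0 := by
    intro j
    induction j with
    | zero => intro x hx; simpa using hx
    | succ j ih =>
      intro x hx
      refine ih x ?_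
      -- T^(n+j+1) x = 0 → T^(n+j) x = 0
      have h1 : (T ^ (n + 1)) ((T ^ j) x) = 0 := by
        have : T ^ (n + (j + 1)) = T ^ (n + 1) * T ^ j := by rw [← pow_add]; congr 1; omega
        rw [this] at hx; exact hx
      have h2 := hn _ h1
      rw [pow_add]; exact h2
  obtain ⟨L, hL, hLT⟩ := exists_compact_pow K hK n
  rw [← hT] at hLT
  have hfin : FiniteDimensional 𝕜 (LinearMap.ker ((1 - L : X →L[𝕜] X) : X →ₗ[𝕜] X)) :=
    finiteDimensional_ker L hL
  set N := LinearMap.ker ((1 - L : X →L[𝕜] X) : X →ₗ[𝕜] X) with hN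
  have hNmem : ∀ x, x ∈ N ↔ (T ^ n) x = 0 := by
    intro x; rw [hLT]; simp [hN]
  -- a bounded projection onto N
  obtain ⟨Q0, hQ0⟩ := Submodule.ClosedComplemented.of_finiteDimensional N
  let Q : X →L[𝕜] X := N.subtypeL.comp Q0
  have hQN : ∀ x, Q x ∈ N := fun x => (Q0 x).2
  have hQid : ∀ x ∈ N, Q x = x := by
    intro x hx
    have := hQ0 ⟨x, hx⟩
    simp [Q, this]
  have hQc : IsCompactOperator Q := by
    have : IsCompactOperator (N.subtypeL : N →L[𝕜] X) := by
      have h1 : IsCompactOperator (id : N → N) := by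
        exact isCompactOperator_id_iff_finiteDimensional.2 hfin
      exact h1.clm_comp N.subtypeL
    exact this.comp_clm Q0
  -- T^n + Q is injective, of the form 1 - compact
  have hcomp : IsCompactOperator (L - Q : X →L[𝕜] X) := hL.sub hQc
  have hinj : ∀ x, (1 - (L - Q)) x = 0 → x = 0 := by
    intro x hx
    have h1 : (T ^ n) x + Q x = 0 := by
      rw [hLT]; simpa [sub_add] using hx
    have h2 : (T ^ (n + n)) x = 0 := by
      have h3 : (T ^ n) ((T ^ n) x + Q x) = 0 := by rw [h1, map_zero]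
      rw [map_add, (hNmem _).1 (hQN x), add_zero] at h3
      rw [pow_add]; exact h3
    have h3 := hasc n x h2
    have h4 : Q x = x := hQid x ((hNmem x).2 h3)
    rw [h3, zero_add, h4] at h1
    exact h1
  obtain ⟨U, hU1, hU2⟩ := exists_inverse_of_injective (L - Q) hcomp hinj
  have hU2' : ∀ y, (T ^ n) (U y) + Q (U y) = y := by
    intro y
    have := hU2 y
    rw [hLT]; simpa [sub_add] using this
  -- the projection
  let Pi : X →L[𝕜] X := Q.comp U
  have hPiN : ∀ x, Pi x ∈ N := fun x => hQN _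
  have hPi_id : ∀ x ∈ N, Pi x = x := by
    intro x hx
    -- U x = x
    have h1 : (1 - (L - Q)) x = x := by
      have h3 : (T ^ n) x = 0 := (hNmem x).1 hx
      rw [hLT] at h3
      have h4 : x - L x = 0 := by simpa using h3
      have : (1 - (L - Q)) x = (x - L x) + Q x := by simp [sub_add]
      rw [this, h4, hQid x hx, zero_add]
    have h2 : U x = x := by
      have := hU1 x
      rwa [h1] at this
    simp [Pi, h2, hQid x hx]
  -- decomposition x = T^n (U x) + Pi x
  have hdec : ∀ x, x = (T ^ n) (U x) + Pi x := fun x => (hU2' x).symm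
  have hPi_ran : ∀ x, Pi ((T ^ n) x) = 0 := by
    intro x
    -- T^n x = T^n (U (T^n x)) + Pi (T^n x), so Pi (T^n x) ∈ N ∩ ran T^n
    have h1 := hdec ((T ^ n) x)
    have h2 : Pi ((T ^ n) x) = (T ^ n) (x - U ((T ^ n) x)) := by
      rw [map_sub]; nth_rewrite 2 [h1]; abel
    have h3 : (T ^ (n + n)) (x - U ((T ^ n) x)) = 0 := by
      rw [pow_add]
      change (T ^ n) ((T ^ n) (x - U ((T ^ n) x))) = 0
      rw [← h2]
      exact (hNmem _).1 (hPiN _)
    have h4 := hasc n _ h3
    rw [h2, h4]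
  have hidem : ∀ x, Pi (Pi x) = Pi x := fun x => hPi_id _ (hPiN x)
  have hTN : ∀ x ∈ N, T x ∈ N := by
    intro x hx
    rw [hNmem] at hx ⊢
    have : (T ^ n) (T x) = T ((T ^ n) x) := by
      have : T ^ n * T = T * T ^ n := (pow_succ T n).symm.trans (pow_succ' T n)
      exact congrArg (fun L : X →L[𝕜] X => L x) this
    rw [this, hx, map_zero]
  have hcommTn : ∀ x, T ((T ^ n) x) = (T ^ n) (T x) := by
    intro x
    have : T ^ n * T = T * T ^ n := (pow_succ T n).symm.trans (pow_succ' T n)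
    exact (congrArg (fun L : X →L[𝕜] X => L x) this).symm
  have hPiT : ∀ x, Pi (T x) = T (Pi x) := by
    intro x
    have h1 := hdec x
    have h2 : T x = (T ^ n) (T (U x)) + T (Pi x) := by
      nth_rewrite 1 [h1]; rw [map_add, hcommTn]
    rw [h2, map_add, hPi_ran, zero_add, hPi_id _ (hTN _ (hPiN x))]
  -- T + Pi is injective
  have hinj2 : ∀ x, (1 - (K - Pi)) x = 0 → x = 0 := by
    intro x hx
    have h1 : T x + Pi x = 0 := by
      have : (1 - (K - Pi)) x = T x + Pi x := by simp [hT, sub_add]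
      rw [← this]; exact hx
    have h2 : T (Pi x) + Pi x = 0 := by
      have := congrArg Pi h1
      rw [map_add, map_zero, hidem, hPiT] at this
      exact this
    -- T acts nilpotently on N, so Pi x = 0
    have h3 : ∀ j : ℕ, Pi x = (-1 : 𝕜) ^ j • (T ^ j) (Pi x) := by
      intro j
      induction j with
      | zero => simp
      | succ j ih =>
        have h4 : Pi x = -(T (Pi x)) := (neg_eq_of_add_eq_zero_right h2).symm
        have h5 : (T ^ (j + 1)) (Pi x) = (T ^ j) (T (Pi x)) := by rw [pow_succ]; rfl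
        have h6 : T (Pi x) = - Pi x := eq_neg_of_add_eq_zero_left h2
        rw [h5, h6, map_neg, pow_succ, mul_smul]
        simp only [neg_smul, one_smul, neg_neg]
        exact ih
    have h4 : Pi x = 0 := by
      rw [h3 n, (hNmem _).1 (hPiN x), smul_zero]
    have h5 : T x = 0 := by rw [h4, add_zero] at h1; exact h1
    have h6 : (T ^ (n + 1)) x = 0 := by
      rw [pow_succ]; change (T ^ n) (T x) = 0; rw [h5, map_zero]
    have h7 : x ∈ N := (hNmem x).2 (hn x h6)
    rw [← hPi_id x h7, h4]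
  have hPic : IsCompactOperator Pi := hQc.comp_clm U
  obtain ⟨S1, hS1, hS2⟩ := exists_inverse_of_injective (K - Pi) (hK.sub hPic) hinj2
  have hS1' : ∀ x, S1 (T x + Pi x) = x := by
    intro x
    have := hS1 x
    have h : (1 - (K - Pi)) x = T x + Pi x := by simp [hT, sub_add]
    rwa [h] at this
  have hS2' : ∀ x, T (S1 x) + Pi (S1 x) = x := by
    intro x
    have := hS2 x
    have h : (1 - (K - Pi)) (S1 x) = T (S1 x) + Pi (S1 x) := by simp [hT, sub_add]
    rwa [h] at this
  have hS1Pi : ∀ x, Pi (S1 x) = S1 (Pi x) := by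
    intro x
    -- (T+Pi) Pi (S1 x) = Pi (T+Pi) S1 x = Pi x
    have h1 : T (Pi (S1 x)) + Pi (Pi (S1 x)) = Pi x := by
      rw [← hPiT, ← map_add, hS2']
    have h2 := hS1' (Pi (S1 x))
    rw [h1] at h2
    exact h2.symm
  refine ⟨n, Pi, S1.comp (1 - Pi), ⟨?_, ?_, ?_, ?_, ?_, ?_⟩, ?_⟩
  · intro x
    have : ((T : X →ₗ[𝕜] X) ^ n) (Pi x) = (T ^ n) (Pi x) := by
      rw [← ContinuousLinearMap.toLinearMap_pow]; rfl
    change ((T : X →ₗ[𝕜] X) ^ n) (Pi x) = 0
    rw [this]; exact (hNmem _).1 (hPiN x)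
  · exact hidem
  · intro x
    change T (S1 (x - Pi x)) = x - Pi x
    have h1 := hS2' (x - Pi x)
    have h2 : Pi (S1 (x - Pi x)) = 0 := by
      rw [hS1Pi, map_sub, hidem, sub_self, map_zero]
    rw [h2, add_zero] at h1
    exact h1
  · intro x
    change S1 (T x - Pi (T x)) = x - Pi x
    have h1 := hS1' (x - Pi x)
    rw [map_sub, map_sub, hidem, sub_self, add_zero] at h1
    rw [hPiT]; exact h1
  · intro x
    change Pi (S1 (x - Pi x)) = 0
    rw [hS1Pi, map_sub, hidem, sub_self, map_zero]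
  · intro x
    change S1 (Pi x - Pi (Pi x)) = 0
    rw [hidem, sub_self, map_zero]
  · have hle : LinearMap.range (Pi : X →ₗ[𝕜] X) ≤ N := by
      rintro _ ⟨x, rfl⟩
      exact hPiN x
    exact Submodule.finiteDimensional_of_le hle

end Compact

end Vale.Agent.P267.H285
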